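import Mathlib

namespace Vale.Agent.helper7.Rem

/-- The choice of parameters. -/
lemma choose_params (n N : ℕ) (hN1 : 1 ≤ N) (ε : ℝ) (h0 : 0 < ε) (h1 : ε < 1)
    (hN : (N : ℝ) < (ε / 32) ^ 28 * (n : ℝ) ^ 4) :
    ∃ K u : ℕ, 1 ≤ K ∧ 1 ≤ u ∧ K ^ 7 * u ≤ n ∧ n < 2 * K ^ 7 * u ∧ N ≤ K ^ 10 * u ^ 4 ∧
      31 ≤ ε * K := by
  obtain ⟨K, hK⟩ : ∃ K, K = ⌈31 / ε⌉₊ := ⟨_, rfl⟩
  have hq : 0 < 31 / ε := by positivity
  have hK1 : 31 / ε ≤ (K : ℝ) := by rw [hK]; exact Nat.le_ceil _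
  have hK2 : (K : ℝ) < 31 / ε + 1 := by rw [hK]; exact Nat.ceil_lt_add_one hq.le
  have hKpos : (0 : ℝ) < K := lt_of_lt_of_le hq hK1
  have hK1' : 1 ≤ K := by
    have : 0 < K := by exact_mod_cast hKpos
    omega
  have h31 : 31 ≤ ε * K := by
    have : 31 / ε * ε ≤ K * ε := by gcongr
    rw [div_mul_cancel₀ _ h0.ne'] at this
    linarith
  have h32 : ε * K < 32 := by
    have : K * ε < (31 / ε + 1) * ε := by gcongr
    have h3 : (31 / ε + 1) * ε = 31 + ε := by field_simp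
    rw [h3] at this
    linarith
  have hw0 : 0 < ε / 32 := by positivity
  have hw : (ε / 32) * K < 1 := by
    have : (ε / 32) * K = (ε * K) / 32 := by ring
    rw [this, div_lt_one (by norm_num)]
    exact h32
  -- n is large
  have hNreal : (1 : ℝ) ≤ N := by exact_mod_cast hN1
  have hlarge : ((K : ℝ) ^ 7) ^ 4 < (n : ℝ) ^ 4 := by
    have h2 : ((ε / 32) * K) ^ 28 ≤ 1 := pow_le_one₀ (by positivity) hw.le
    have h3 : (ε / 32) ^ 28 * ((K : ℝ) ^ 7) ^ 4 ≤ 1 := by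
      calc (ε / 32) ^ 28 * ((K : ℝ) ^ 7) ^ 4 = ((ε / 32) * K) ^ 28 := by ring
        _ ≤ 1 := h2
    have h4 : (ε / 32) ^ 28 * ((K : ℝ) ^ 7) ^ 4 < (ε / 32) ^ 28 * (n : ℝ) ^ 4 := by
      linarith
    exact lt_of_mul_lt_mul_left h4 (by positivity)
  have hK7 : K ^ 7 < n := by
    have := lt_of_pow_lt_pow_left₀ 4 (by positivity) hlarge
    exact_mod_cast this
  have hK7pos : 0 < K ^ 7 := by positivity
  obtain ⟨u, hu⟩ : ∃ u, u = n / K ^ 7 := ⟨_, rfl⟩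
  have hu1 : 1 ≤ u := by
    rw [hu]
    exact Nat.div_pos hK7.le hK7pos
  have hun : K ^ 7 * u ≤ n := by
    rw [hu]
    exact Nat.mul_div_le _ _
  have hnu : n < 2 * K ^ 7 * u := by
    have h5 : n < K ^ 7 * (u + 1) := by
      rw [hu]
      exact Nat.lt_mul_div_succ _ hK7pos
    have h6 : K ^ 7 * (u + 1) ≤ 2 * K ^ 7 * u := by nlinarith
    omega
  refine ⟨K, u, hK1', hu1, hun, hnu, ?_, h31⟩
  have hnreal : (n : ℝ) ≤ 2 * (K : ℝ) ^ 7 * u := by exact_mod_cast hnu.le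
  have hpow : (n : ℝ) ^ 4 ≤ (2 * (K : ℝ) ^ 7 * u) ^ 4 := by gcongr
  have hfin : (N : ℝ) ≤ (K : ℝ) ^ 10 * (u : ℝ) ^ 4 := by
    have h7 : (N : ℝ) ≤ (ε / 32) ^ 28 * (2 * (K : ℝ) ^ 7 * u) ^ 4 :=
      hN.le.trans (mul_le_mul_of_nonneg_left hpow (by positivity))
    have h8 : (ε / 32) ^ 28 * (2 * (K : ℝ) ^ 7 * u) ^ 4 =
        ((ε / 32) * K) ^ 18 * ((ε / 32) ^ 10 * 16) * ((K : ℝ) ^ 10 * (u : ℝ) ^ 4) := by ring
    have h9 : ((ε / 32) * K) ^ 18 ≤ 1 := pow_le_one₀ (by positivity) hw.le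
    have h10 : (ε / 32) ^ 10 * 16 ≤ 1 := by
      have h11 : ε / 32 ≤ 1 / 32 := by linarith
      have h12 : (ε / 32) ^ 10 ≤ (1 / 32 : ℝ) ^ 10 := pow_le_pow_left₀ hw0.le h11 10
      have h13 : (1 / 32 : ℝ) ^ 10 * 16 ≤ 1 := by norm_num
      nlinarith
    have h14 : 0 ≤ (K : ℝ) ^ 10 * (u : ℝ) ^ 4 := by positivity
    have h15 : ((ε / 32) * K) ^ 18 * ((ε / 32) ^ 10 * 16) ≤ 1 := by
      have h16 : 0 ≤ (ε / 32) ^ 10 * 16 := by positivity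
      have h17 : 0 ≤ ((ε / 32) * K) ^ 18 := by positivity
      nlinarith
    rw [h8] at h7
    nlinarith
  exact_mod_cast hfin

end Vale.Agent.helper7.Rem
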