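import Mathlib

namespace Vale.Agent.helper7.Rem

open Finset

variable {n : ℕ}

/-- The four entries of a two by two pattern: the upper row reads `a1 a2`, the lower `b1 b2`. -/
structure Pat where
  a1 : Bool
  a2 : Bool
  b1 : Bool
  b2 : Bool

abbrev First (A : Fin n → Fin n → Bool) (P : Pat) (r' r c : Fin n) : Prop :=
  A r' c = P.a1 ∧ A r c = P.b1

abbrev Second (A : Fin n → Fin n → Bool) (P : Pat) (r' r c : Fin n) : Prop :=
  A r' c = P.a2 ∧ A r c = P.b2

/-- Row pairs carrying a copy on the column pair `c1, c2`. -/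
def copSet (A : Fin n → Fin n → Bool) (P : Pat) (c1 c2 : Fin n) : Finset (Fin n × Fin n) :=
  univ.filter fun q => q.1 < q.2 ∧ First A P q.1 q.2 c1 ∧ Second A P q.1 q.2 c2

def cop (A : Fin n → Fin n → Bool) (P : Pat) (c1 c2 : Fin n) : ℕ := (copSet A P c1 c2).card

/-- All copies, as pairs of a row pair and a column pair. -/
def totalSet (A : Fin n → Fin n → Bool) (P : Pat) :
    Finset ((Fin n × Fin n) × (Fin n × Fin n)) :=
  univ.filter fun q => q.1.1 < q.1.2 ∧ q.2.1 < q.2.2 ∧
    First A P q.1.1 q.1.2 q.2.1 ∧ Second A P q.1.1 q.1.2 q.2.2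

def total (A : Fin n → Fin n → Bool) (P : Pat) : ℕ := (totalSet A P).card

/-- A column pair with many copies. -/
def Bd (A : Fin n → Fin n → Bool) (P : Pat) (m : ℕ) (c c' : Fin n) : Prop :=
  c < c' ∧ m < cop A P c c'

def BdU (A : Fin n → Fin n → Bool) (P : Pat) (m : ℕ) (c c' : Fin n) : Prop :=
  Bd A P m c c' ∨ Bd A P m c' c

open Classical in
noncomputable def deg (A : Fin n → Fin n → Bool) (P : Pat) (m : ℕ) (c : Fin n) : ℕ :=
  (univ.filter fun c' => BdU A P m c c').card

/-- Row pairs on which column `c` shows the first letter. -/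
def adv (A : Fin n → Fin n → Bool) (P : Pat) (c : Fin n) : Finset (Fin n × Fin n) :=
  univ.filter fun q => q.1 < q.2 ∧ First A P q.1 q.2 c

open Classical in
/-- Scanning the columns from left to right. -/
noncomputable def greedy (A : Fin n → Fin n → Bool) (P : Pat) (m p θ : ℕ) : ℕ → Finset (Fin n)
  | 0 => ∅
  | i + 1 =>
    if h : i < n then
      if deg A P m ⟨i, h⟩ ≤ p ∧ (∀ t ∈ greedy A P m p θ i, ¬ BdU A P m t ⟨i, h⟩) ∧
          θ ≤ (adv A P ⟨i, h⟩ \ (greedy A P m p θ i).biUnion (adv A P)).card then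
        insert ⟨i, h⟩ (greedy A P m p θ i)
      else greedy A P m p θ i
    else greedy A P m p θ i

section greedy
variable (A : Fin n → Fin n → Bool) (P : Pat) (m p θ : ℕ)

open Classical in
lemma greedy_succ (i : ℕ) : greedy A P m p θ (i + 1) =
    if h : i < n then
      if deg A P m ⟨i, h⟩ ≤ p ∧ (∀ t ∈ greedy A P m p θ i, ¬ BdU A P m t ⟨i, h⟩) ∧
          θ ≤ (adv A P ⟨i, h⟩ \ (greedy A P m p θ i).biUnion (adv A P)).card then
        insert ⟨i, h⟩ (greedy A P m p θ i)
      else greedy A P m p θ i
    else greedy A P m p θ i := rfl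

lemma greedy_succ_cases (i : ℕ) :
    greedy A P m p θ (i + 1) = greedy A P m p θ i ∨
    ∃ h : i < n, deg A P m ⟨i, h⟩ ≤ p ∧ (∀ t ∈ greedy A P m p θ i, ¬ BdU A P m t ⟨i, h⟩) ∧
      θ ≤ (adv A P ⟨i, h⟩ \ (greedy A P m p θ i).biUnion (adv A P)).card ∧
      greedy A P m p θ (i + 1) = insert ⟨i, h⟩ (greedy A P m p θ i) := by
  classical
  rw [greedy_succ]
  by_cases h : i < n
  · rw [dif_pos h]
    by_cases h2 : deg A P m ⟨i, h⟩ ≤ p ∧ (∀ t ∈ greedy A P m p θ i, ¬ BdU A P m t ⟨i, h⟩) ∧
          θ ≤ (adv A P ⟨i, h⟩ \ (greedy A P m p θ i).biUnion (adv A P)).card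
    · right
      refine ⟨h, h2.1, h2.2.1, h2.2.2, ?_⟩
      rw [if_pos h2]
    · left
      rw [if_neg h2]
  · left
    rw [dif_neg h]

lemma greedy_lt (i : ℕ) : ∀ t ∈ greedy A P m p θ i, t.val < i := by
  classical
  induction i with
  | zero => intro t ht; simp [greedy] at ht
  | succ i ih =>
    intro t ht
    rcases greedy_succ_cases A P m p θ i with h | ⟨h, _, _, _, h4⟩
    · rw [h] at ht; exact Nat.lt_succ_of_lt (ih t ht)
    · rw [h4, mem_insert] at ht
      rcases ht with rfl | ht
      · exact Nat.lt_succ_self _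
      · exact Nat.lt_succ_of_lt (ih t ht)

lemma greedy_mono (i j : ℕ) (hij : i ≤ j) : greedy A P m p θ i ⊆ greedy A P m p θ j := by
  classical
  induction j, hij using Nat.le_induction with
  | base => exact Subset.refl _
  | succ j _ ih =>
    intro t ht
    rcases greedy_succ_cases A P m p θ j with h | ⟨h, _, _, _, h4⟩
    · rw [h]; exact ih ht
    · rw [h4]; exact mem_insert_of_mem (ih ht)

lemma greedy_mem_early (i j : ℕ) (hij : i ≤ j) (t : Fin n) (ht : t ∈ greedy A P m p θ j)
    (hlt : t.val < i) : t ∈ greedy A P m p θ i := by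
  classical
  induction j, hij using Nat.le_induction with
  | base => exact ht
  | succ j hj ih =>
    rcases greedy_succ_cases A P m p θ j with h | ⟨h, _, _, _, h4⟩
    · rw [h] at ht; exact ih ht
    · rw [h4, mem_insert] at ht
      rcases ht with rfl | ht
      · simp at hlt; omega
      · exact ih ht

lemma greedy_deg (i : ℕ) : ∀ t ∈ greedy A P m p θ i, deg A P m t ≤ p := by
  classical
  induction i with
  | zero => intro t ht; simp [greedy] at ht
  | succ i ih =>
    intro t ht
    rcases greedy_succ_cases A P m p θ i with h | ⟨h, h2, _, _, h4⟩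
    · rw [h] at ht; exact ih t ht
    · rw [h4, mem_insert] at ht
      rcases ht with rfl | ht
      · exact h2
      · exact ih t ht

lemma BdU_symm {c c' : Fin n} (h : BdU A P m c c') : BdU A P m c' c := Or.symm h

lemma greedy_nobad (i : ℕ) : ∀ t ∈ greedy A P m p θ i, ∀ t' ∈ greedy A P m p θ i,
    ¬ BdU A P m t t' := by
  classical
  induction i with
  | zero => intro t ht; simp [greedy] at ht
  | succ i ih =>
    intro t ht t' ht' hb
    rcases greedy_succ_cases A P m p θ i with h | ⟨h, _, h3, _, h4⟩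
    · rw [h] at ht ht'; exact ih t ht t' ht' hb
    · rw [h4, mem_insert] at ht ht'
      rcases ht with rfl | ht <;> rcases ht' with rfl | ht'
      · rcases hb with hb | hb <;> exact absurd hb.1 (lt_irrefl _)
      · exact h3 t' ht' (BdU_symm A P m hb)
      · exact h3 t ht hb
      · exact ih t ht t' ht' hb

lemma greedy_potential (i : ℕ) :
    (greedy A P m p θ i).card * θ ≤ ((greedy A P m p θ i).biUnion (adv A P)).card := by
  classical
  induction i with
  | zero => simp [greedy]
  | succ i ih =>
    rcases greedy_succ_cases A P m p θ i with h | ⟨h, _, _, h3, h4⟩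
    · rw [h]; exact ih
    · rw [h4]
      have hnot : (⟨i, h⟩ : Fin n) ∉ greedy A P m p θ i := by
        intro hmem
        have := greedy_lt A P m p θ i _ hmem
        simp at this
      rw [card_insert_of_notMem hnot, biUnion_insert]
      have hc : (adv A P ⟨i, h⟩ ∪ (greedy A P m p θ i).biUnion (adv A P)).card =
          (adv A P ⟨i, h⟩ \ (greedy A P m p θ i).biUnion (adv A P)).card +
            ((greedy A P m p θ i).biUnion (adv A P)).card := by
        rw [← card_union_of_disjoint]
        · congr 1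
          ext x
          simp only [mem_union, mem_sdiff]
          tauto
        · exact disjoint_sdiff_self_left
      rw [hc]
      nlinarith

lemma greedy_final_filter (c : Fin n) (t : Fin n) :
    (t ∈ greedy A P m p θ n ∧ t < c) ↔ t ∈ greedy A P m p θ c.val := by
  constructor
  · rintro ⟨h1, h2⟩
    exact greedy_mem_early A P m p θ c.val n c.isLt.le t h1 h2
  · intro h
    exact ⟨greedy_mono A P m p θ c.val n c.isLt.le h, greedy_lt A P m p θ c.val t h⟩

lemma greedy_not_mem (c : Fin n) (hc : c ∉ greedy A P m p θ n) :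
    ¬ (deg A P m c ≤ p ∧ (∀ t ∈ greedy A P m p θ c.val, ¬ BdU A P m t c) ∧
      θ ≤ (adv A P c \ (greedy A P m p θ c.val).biUnion (adv A P)).card) := by
  classical
  intro h
  apply hc
  apply greedy_mono A P m p θ (c.val + 1) n c.isLt
  rw [greedy_succ, dif_pos c.isLt, if_pos h]
  exact mem_insert_self _ _

end greedy

/-- Row pairs on which column `c` advances, relative to the columns of `T` to its left. -/
def freshSet (A : Fin n → Fin n → Bool) (P : Pat) (T : Finset (Fin n)) (c : Fin n) :
    Finset (Fin n × Fin n) :=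
  univ.filter fun q => q.1 < q.2 ∧ First A P q.1 q.2 c ∧ ∀ t ∈ T, t < c → ¬ First A P q.1 q.2 t

/-- Threshold lemma: few pairs `p < q` in `P × Q` give a cut. -/
lemma threshold (P Q : Finset (Fin n)) (e : ℕ) (he : 1 ≤ e)
    (h : ((P ×ˢ Q).filter fun q => q.1 < q.2).card ≤ e * e) :
    ∃ x : ℕ, (P.filter fun p => p.val < x).card ≤ e ∧ (Q.filter fun q => x ≤ q.val).card ≤ e := by
  classical
  by_cases hP : P.card ≤ e
  · refine ⟨n, (card_filter_le _ _).trans hP, ?_⟩
    have : Q.filter (fun q => n ≤ q.val) = ∅ := by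
      apply filter_eq_empty_iff.mpr
      intro q _
      exact not_le.mpr q.isLt
    rw [this]; simp
  · push Not at hP
    let pr : ℕ → Prop := fun x => (P.filter fun p => p.val < x).card ≤ e
    have h0 : pr 0 := by simp [pr]
    let x := Nat.findGreatest pr n
    have hx : pr x := Nat.findGreatest_spec (Nat.zero_le n) h0
    have hxn : x < n := by
      have hle : x ≤ n := Nat.findGreatest_le n
      rcases lt_or_eq_of_le hle with h1 | h1
      · exact h1
      · exfalso
        have : (P.filter fun p => p.val < n) = P := by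
          apply filter_true_of_mem
          intro p _
          exact p.isLt
        have hh : pr n := by
          have := hx
          rw [h1] at this
          exact this
        simp only [pr, this] at hh
        omega
    have hnext : ¬ pr (x + 1) := Nat.findGreatest_is_greatest (Nat.lt_succ_self x) hxn
    have hsucc : (P.filter fun p => p.val < x + 1).card ≤ (P.filter fun p => p.val < x).card + 1 := by
      have hsub : (P.filter fun p => p.val < x + 1) ⊆
          insert (⟨x, hxn⟩ : Fin n) (P.filter fun p => p.val < x) := by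
        intro p hp
        simp only [mem_filter, mem_insert] at hp ⊢
        by_cases hpx : p.val = x
        · left; exact Fin.ext hpx
        · right; exact ⟨hp.1, by omega⟩
      exact (card_le_card hsub).trans (card_insert_le _ _)
    have hexact : (P.filter fun p => p.val < x).card = e := by
      simp only [pr, not_le] at hnext hx
      omega
    refine ⟨x, hx, ?_⟩
    have hsub : (P.filter fun p => p.val < x) ×ˢ (Q.filter fun q => x ≤ q.val) ⊆
        ((P ×ˢ Q).filter fun q => q.1 < q.2) := by
      intro q hq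
      simp only [mem_product, mem_filter] at hq ⊢
      refine ⟨⟨hq.1.1, hq.2.1⟩, ?_⟩
      exact Fin.lt_def.mpr (lt_of_lt_of_le hq.1.2 hq.2.2)
    have := (card_le_card hsub).trans h
    rw [card_product, hexact] at this
    exact Nat.le_of_mul_le_mul_left this (by omega)

/-- Cleaning the rows for one column pair. -/
lemma row_clean (A : Fin n → Fin n → Bool) (P : Pat) (t t' : Fin n) (e : ℕ) (he : 1 ≤ e)
    (h : cop A P t t' ≤ e * e) :
    ∃ W : Finset (Fin n), W.card ≤ 2 * e ∧ ∀ r' r, r' < r → First A P r' r t → Second A P r' r t' →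
      r' ∈ W ∨ r ∈ W := by
  classical
  let PP : Finset (Fin n) := univ.filter fun r => A r t = P.a1 ∧ A r t' = P.a2
  let QQ : Finset (Fin n) := univ.filter fun r => A r t = P.b1 ∧ A r t' = P.b2
  have hsub : ((PP ×ˢ QQ).filter fun q => q.1 < q.2) ⊆ copSet A P t t' := by
    intro q hq
    simp only [PP, QQ, mem_filter, mem_product, mem_univ, true_and, copSet] at hq ⊢
    exact ⟨hq.2, ⟨hq.1.1.1, hq.1.2.1⟩, ⟨hq.1.1.2, hq.1.2.2⟩⟩
  obtain ⟨x, h1, h2⟩ := threshold PP QQ e he ((card_le_card hsub).trans h)
  refine ⟨(PP.filter fun p => p.val < x) ∪ (QQ.filter fun q => x ≤ q.val), ?_, ?_⟩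
  · exact (card_union_le _ _).trans (by omega)
  · intro r' r hlt hF hS
    by_cases hx : r'.val < x
    · left
      simp only [mem_union, mem_filter, PP, mem_univ, true_and]
      left
      exact ⟨⟨hF.1, hS.1⟩, hx⟩
    · right
      simp only [mem_union, mem_filter, QQ, mem_univ, true_and]
      right
      refine ⟨⟨hF.2, hS.2⟩, ?_⟩
      have : r'.val < r.val := hlt
      omega

/-- Counting heavy columns. -/
lemma heavy_count (A : Fin n → Fin n → Bool) (P : Pat) (m p : ℕ) :
    (univ.filter fun c : Fin n => p < deg A P m c).card * p * m ≤ 2 * total A P := by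
  classical
  -- bad pairs
  let B : Finset (Fin n × Fin n) := univ.filter fun q => Bd A P m q.1 q.2
  have h1 : B.card * m ≤ total A P := by
    -- inject
    have hsum : ∑ q ∈ B, cop A P q.1 q.2 ≤ total A P := by
      have : ∑ q ∈ B, cop A P q.1 q.2 = (B.sigma fun q => copSet A P q.1 q.2).card := by
        rw [card_sigma]; rfl
      rw [this]
      unfold total
      apply card_le_card_of_injOn (fun x => (x.2, x.1))
      · intro x hx
        have hx' := mem_sigma.mp (mem_coe.mp hx)
        have h1 : Bd A P m x.1.1 x.1.2 := (mem_filter.mp hx'.1).2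
        have h2 := (mem_filter.mp hx'.2).2
        apply mem_coe.mpr
        apply mem_filter.mpr
        exact ⟨mem_univ _, h2.1, h1.1, h2.2.1, h2.2.2⟩
      · intro x _ y _ hxy
        simp only [Prod.mk.injEq] at hxy
        rcases x with ⟨x1, x2⟩
        rcases y with ⟨y1, y2⟩
        simp only at hxy
        obtain ⟨h1, h2⟩ := hxy
        subst h1
        subst h2
        rfl
    have hle : B.card * m ≤ ∑ q ∈ B, cop A P q.1 q.2 := by
      rw [← smul_eq_mul]
      apply card_nsmul_le_sum
      intro q hq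
      have h1 : Bd A P m q.1 q.2 := (mem_filter.mp hq).2
      exact h1.2.le
    exact hle.trans hsum
  -- degrees sum
  have h2 : ∑ c : Fin n, deg A P m c ≤ 2 * B.card := by
    have : ∑ c : Fin n, deg A P m c =
        (univ.filter fun q : Fin n × Fin n => BdU A P m q.1 q.2).card := by
      simp only [deg]
      rw [card_filter, Fintype.sum_prod_type]
      apply sum_congr rfl
      intro c _
      rw [card_filter]
    rw [this]
    have hsub : (univ.filter fun q : Fin n × Fin n => BdU A P m q.1 q.2) ⊆
        B ∪ B.image Prod.swap := by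
      intro q hq
      have hq' : BdU A P m q.1 q.2 := (mem_filter.mp hq).2
      rcases hq' with hq' | hq'
      · exact mem_union_left _ (mem_filter.mpr ⟨mem_univ _, hq'⟩)
      · exact mem_union_right _ (mem_image.mpr ⟨(q.2, q.1), mem_filter.mpr ⟨mem_univ _, hq'⟩, rfl⟩)
    calc _ ≤ (B ∪ B.image Prod.swap).card := card_le_card hsub
      _ ≤ B.card + (B.image Prod.swap).card := card_union_le _ _
      _ ≤ B.card + B.card := by
          have := card_image_le (s := B) (f := Prod.swap)
          omega
      _ = 2 * B.card := by ring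
  have h3 : (univ.filter fun c : Fin n => p < deg A P m c).card * p ≤ ∑ c : Fin n, deg A P m c := by
    calc _ ≤ ∑ c ∈ (univ.filter fun c : Fin n => p < deg A P m c), deg A P m c := by
          rw [← smul_eq_mul]
          apply card_nsmul_le_sum
          intro c hc
          exact (mem_filter.mp hc).2.le
      _ ≤ _ := sum_le_sum_of_subset (subset_univ _)
  calc _ ≤ (2 * B.card) * m := Nat.mul_le_mul_right _ (h3.trans h2)
    _ = 2 * (B.card * m) := by ring
    _ ≤ _ := by omega

/-- The common structure used for both open patterns. -/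
theorem structure_lemma (A : Fin n → Fin n → Bool) (P : Pat) (e p θ : ℕ) (he : 1 ≤ e) :
    ∃ T X W : Finset (Fin n), ∃ h : ℕ,
      T.card * θ ≤ n * n ∧
      X.card ≤ h + T.card * p ∧
      h * p * (e * e) ≤ 2 * total A P ∧
      W.card ≤ T.card * T.card * (2 * e) ∧
      (∀ r' r, r' ∉ W → r ∉ W → r' < r → ∀ t ∈ T, ∀ t' ∈ T, t < t' →
        ¬ (First A P r' r t ∧ Second A P r' r t')) ∧
      (∀ t ∈ T, ∀ c, c ∉ X → t < c → cop A P t c ≤ e * e) ∧
      (∀ c, c ∉ X → c ∉ T → (freshSet A P T c).card < θ) := by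
  classical
  set m := e * e with hm
  set T := greedy A P m p θ n with hT
  let Heavy : Finset (Fin n) := univ.filter fun c : Fin n => p < deg A P m c
  let X : Finset (Fin n) := Heavy ∪ T.biUnion fun t => univ.filter fun c => BdU A P m t c
  -- row cleaning
  have hrc : ∀ t t' : Fin n, ∃ W : Finset (Fin n), W.card ≤ 2 * e ∧
      (t ∈ T → t' ∈ T → t < t' → ∀ r' r, r' < r → First A P r' r t → Second A P r' r t' →
        r' ∈ W ∨ r ∈ W) := by
    intro t t'
    by_cases ht : t ∈ T ∧ t' ∈ T ∧ t < t'
    · obtain ⟨ht1, ht2, ht3⟩ := ht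
      have hg : cop A P t t' ≤ e * e := by
        by_contra hcon
        push Not at hcon
        exact greedy_nobad A P m p θ n t ht1 t' ht2 (Or.inl ⟨ht3, hcon⟩)
      obtain ⟨W, h1, h2⟩ := row_clean A P t t' e he hg
      exact ⟨W, h1, fun _ _ _ => h2⟩
    · refine ⟨∅, by simp, fun h1 h2 h3 => absurd ⟨h1, h2, h3⟩ ht⟩
  choose W hW1 hW2 using hrc
  let WW : Finset (Fin n) := (T ×ˢ T).biUnion fun q => W q.1 q.2
  refine ⟨T, X, WW, Heavy.card, ?_, ?_, ?_, ?_, ?_, ?_, ?_⟩
  · -- potential
    calc T.card * θ ≤ (T.biUnion (adv A P)).card := greedy_potential A P m p θ n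
      _ ≤ (univ : Finset (Fin n × Fin n)).card := card_le_card (subset_univ _)
      _ = n * n := by simp [card_univ]
  · -- size of X
    refine (card_union_le _ _).trans ?_
    apply Nat.add_le_add_left
    refine card_biUnion_le.trans ?_
    calc ∑ t ∈ T, (univ.filter fun c => BdU A P m t c).card ≤ ∑ _t ∈ T, p := by
          apply sum_le_sum
          intro t ht
          exact greedy_deg A P m p θ n t ht
      _ = T.card * p := by simp
  · have := heavy_count A P m p
    simpa [Heavy, hm, mul_assoc] using this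
  · refine card_biUnion_le.trans ?_
    calc ∑ q ∈ T ×ˢ T, (W q.1 q.2).card ≤ ∑ _q ∈ T ×ˢ T, (2 * e) := by
          apply sum_le_sum
          intro q _
          exact hW1 q.1 q.2
      _ = T.card * T.card * (2 * e) := by simp [card_product]
  · intro r' r hr' hr hlt t ht t' ht' htt' hcop
    rcases hW2 t t' ht ht' htt' r' r hlt hcop.1 hcop.2 with h | h
    · apply hr'
      simp only [WW, mem_biUnion, mem_product]
      exact ⟨(t, t'), ⟨ht, ht'⟩, h⟩
    · apply hr
      simp only [WW, mem_biUnion, mem_product]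
      exact ⟨(t, t'), ⟨ht, ht'⟩, h⟩
  · intro t ht c hc htc
    by_contra hcon
    push Not at hcon
    apply hc
    simp only [X, mem_union, mem_biUnion, mem_filter, mem_univ, true_and]
    right
    exact ⟨t, ht, Or.inl ⟨htc, hcon⟩⟩
  · intro c hc hcT
    have h1 : deg A P m c ≤ p := by
      by_contra hcon
      push Not at hcon
      apply hc
      simp only [X, Heavy, mem_union, mem_filter, mem_univ, true_and]
      left
      exact hcon
    have h2 : ∀ t ∈ greedy A P m p θ c.val, ¬ BdU A P m t c := by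
      intro t ht hb
      apply hc
      simp only [X, mem_union, mem_biUnion, mem_filter, mem_univ, true_and]
      right
      exact ⟨t, greedy_mono A P m p θ c.val n c.isLt.le ht, hb⟩
    have h3 := greedy_not_mem A P m p θ c hcT
    have h4 : ¬ θ ≤ (adv A P c \ (greedy A P m p θ c.val).biUnion (adv A P)).card :=
      fun h => h3 ⟨h1, h2, h⟩
    push Not at h4
    refine lt_of_le_of_lt (card_le_card ?_) h4
    intro q hq
    simp only [freshSet, mem_filter, mem_univ, true_and] at hq
    simp only [mem_sdiff, adv, mem_filter, mem_univ, true_and, mem_biUnion, not_exists, not_and]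
    refine ⟨⟨hq.1, hq.2.1⟩, ?_⟩
    intro t ht _
    have ht' := (greedy_final_filter A P m p θ c t).mpr ht
    intro h5 h6
    exact hq.2.2 t ht'.1 ht'.2 ⟨h5, h6⟩

/-- Numeric form of the structure lemma. -/
theorem structure_params (A : Fin n → Fin n → Bool) (P : Pat) (K u : ℕ) (hK : 1 ≤ K) (hu : 1 ≤ u)
    (hn : n < 2 * K ^ 7 * u) (hN : total A P ≤ K ^ 10 * u ^ 4) :
    ∃ T X W : Finset (Fin n),
      T.card ≤ K ^ 2 ∧
      X.card ≤ 3 * K ^ 6 * u ∧
      W.card ≤ 2 * K ^ 4 * u ∧
      (∀ r' r, r' ∉ W → r ∉ W → r' < r → ∀ t ∈ T, ∀ t' ∈ T, t < t' →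
        ¬ (First A P r' r t ∧ Second A P r' r t')) ∧
      (∀ t ∈ T, ∀ c, c ∉ X → t < c → cop A P t c ≤ u * u) ∧
      (∀ c, c ∉ X → c ∉ T → (freshSet A P T c).card < (2 * K ^ 6 * u) * (2 * K ^ 6 * u)) := by
  obtain ⟨T, X, W, h, h1, h2, h3, h4, h5, h6, h7⟩ :=
    structure_lemma A P u (2 * K ^ 4 * u) ((2 * K ^ 6 * u) * (2 * K ^ 6 * u)) hu
  have hKpos : 0 < K := hK
  have hupos : 0 < u := hu
  have ha : 0 < 2 * K ^ 6 * u := by positivity
  have hT : T.card ≤ K ^ 2 := by
    have hlt : n * n < K ^ 2 * ((2 * K ^ 6 * u) * (2 * K ^ 6 * u)) := by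
      have hnK : n < (2 * K ^ 6 * u) * K := by
        calc n < 2 * K ^ 7 * u := hn
          _ = (2 * K ^ 6 * u) * K := by ring
      calc n * n < ((2 * K ^ 6 * u) * K) * ((2 * K ^ 6 * u) * K) :=
            Nat.mul_self_lt_mul_self hnK
        _ = _ := by ring
    have := lt_of_le_of_lt h1 hlt
    exact (Nat.lt_of_mul_lt_mul_right this).le
  have hh : h ≤ K ^ 6 * u := by
    have h8 : h * (K ^ 4 * u ^ 3) ≤ K ^ 6 * u * (K ^ 4 * u ^ 3) := by
      have h9 : 2 * (h * (K ^ 4 * u ^ 3)) ≤ 2 * (K ^ 10 * u ^ 4) := by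
        calc 2 * (h * (K ^ 4 * u ^ 3)) = h * (2 * K ^ 4 * u) * (u * u) := by ring
          _ ≤ 2 * total A P := h3
          _ ≤ _ := by omega
      have h10 : K ^ 6 * u * (K ^ 4 * u ^ 3) = K ^ 10 * u ^ 4 := by ring
      rw [h10]
      omega
    exact Nat.le_of_mul_le_mul_right h8 (by positivity)
  refine ⟨T, X, W, hT, ?_, ?_, h5, h6, h7⟩
  · calc X.card ≤ h + T.card * (2 * K ^ 4 * u) := h2
      _ ≤ K ^ 6 * u + K ^ 2 * (2 * K ^ 4 * u) := by gcongr
      _ = 3 * K ^ 6 * u := by ring
  · calc W.card ≤ T.card * T.card * (2 * u) := h4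
      _ ≤ K ^ 2 * K ^ 2 * (2 * u) := by gcongr
      _ = 2 * K ^ 4 * u := by ring

open Classical in
/-- Counting pairs inside a set on which a relation is nearly total. -/
lemma pair_bound (Y : Finset (Fin n)) (rel : Fin n → Fin n → Prop) (F : Finset (Fin n × Fin n))
    (L : ℕ) (h : ∀ x ∈ Y, ∀ y ∈ Y, x = y ∨ rel x y ∨ rel y x ∨ (x, y) ∈ F)
    (hL : ∀ y ∈ Y, (Y.filter fun x => rel x y).card ≤ L) :
    Y.card * Y.card ≤ Y.card + 2 * L * Y.card + F.card := by
  let S1 : Finset (Fin n × Fin n) := (Y ×ˢ Y).filter fun q => q.1 = q.2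
  let S2 : Finset (Fin n × Fin n) := (Y ×ˢ Y).filter fun q => rel q.1 q.2
  let S3 : Finset (Fin n × Fin n) := (Y ×ˢ Y).filter fun q => rel q.2 q.1
  have hsub : Y ×ˢ Y ⊆ S1 ∪ S2 ∪ S3 ∪ F := by
    intro q hq
    have hq' := mem_product.mp hq
    rcases h q.1 hq'.1 q.2 hq'.2 with h1 | h1 | h1 | h1
    · exact mem_union_left _ (mem_union_left _ (mem_union_left _ (mem_filter.mpr ⟨hq, h1⟩)))
    · exact mem_union_left _ (mem_union_left _ (mem_union_right _ (mem_filter.mpr ⟨hq, h1⟩)))
    · exact mem_union_left _ (mem_union_right _ (mem_filter.mpr ⟨hq, h1⟩))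
    · exact mem_union_right _ h1
  have h1 : S1.card ≤ Y.card := by
    apply card_le_card_of_injOn (fun q => q.1)
    · intro q hq
      exact (mem_product.mp (mem_filter.mp hq).1).1
    · intro q hq q' hq' hqq
      have e1 : q.1 = q.2 := (mem_filter.mp hq).2
      have e2 : q'.1 = q'.2 := (mem_filter.mp hq').2
      have e3 : q.1 = q'.1 := hqq
      exact Prod.ext e3 (by rw [← e1, ← e2, e3])
  have h2 : S2.card ≤ L * Y.card := by
    have : S2.card = ∑ y ∈ Y, (Y.filter fun x => rel x y).card := by
      have e : S2 = Y.biUnion fun y => (Y.filter fun x => rel x y).image fun x => (x, y) := by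
        ext q
        simp only [S2, mem_filter, mem_product, mem_biUnion, mem_image]
        constructor
        · rintro ⟨⟨h1, h2⟩, h3⟩
          exact ⟨q.2, h2, q.1, ⟨h1, h3⟩, rfl⟩
        · rintro ⟨y, hy, x, ⟨hx, hr⟩, rfl⟩
          exact ⟨⟨hx, hy⟩, hr⟩
      rw [e, card_biUnion]
      · apply sum_congr rfl
        intro y _
        rw [card_image_of_injective]
        intro a b hab
        exact (Prod.mk.inj hab).1
      · intro y _ y' _ hne
        rw [Function.onFun, disjoint_left]
        intro q hq hq'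
        obtain ⟨_, _, rfl⟩ := mem_image.mp hq
        obtain ⟨_, _, h3⟩ := mem_image.mp hq'
        exact hne (Prod.mk.inj h3).2.symm
    rw [this]
    calc _ ≤ ∑ _y ∈ Y, L := sum_le_sum hL
      _ = L * Y.card := by simp [mul_comm]
  have h3 : S3.card ≤ L * Y.card := by
    have : S3.card ≤ S2.card := by
      apply card_le_card_of_injOn Prod.swap
      · intro q hq
        have hq1 := mem_filter.mp hq
        have hq2 := mem_product.mp hq1.1
        exact mem_filter.mpr ⟨mem_product.mpr ⟨hq2.2, hq2.1⟩, hq1.2⟩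
      · intro a _ b _ hab
        exact Prod.swap_injective hab
    exact this.trans h2
  have hc : (Y ×ˢ Y).card ≤ S1.card + S2.card + S3.card + F.card := by
    refine (card_le_card hsub).trans ?_
    refine (card_union_le _ _).trans ?_
    apply Nat.add_le_add_right
    refine (card_union_le _ _).trans ?_
    apply Nat.add_le_add_right
    exact card_union_le _ _
  rw [card_product] at hc
  nlinarith

/-- Number of entries where two matrices differ. -/
def diffCount (A B : Fin n → Fin n → Bool) : ℕ :=
  (univ.filter fun q : Fin n × Fin n => A q.1 q.2 ≠ B q.1 q.2).card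

lemma diffCount_le (A B : Fin n → Fin n → Bool) (g : Fin n → ℕ)
    (h : ∀ c, (univ.filter fun r => A r c ≠ B r c).card ≤ g c) :
    diffCount A B ≤ ∑ c, g c := by
  classical
  have : diffCount A B = ∑ c, (univ.filter fun r => A r c ≠ B r c).card := by
    unfold diffCount
    rw [card_filter, Fintype.sum_prod_type_right]
    apply sum_congr rfl
    intro c _
    rw [card_filter]
  rw [this]
  exact sum_le_sum fun c _ => h c

/-- Bound on the sum over columns: few exceptional columns. -/
lemma column_sum_le (X : Finset (Fin n)) (s : ℕ) (g : Fin n → ℕ)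
    (h1 : ∀ c, c ∈ X → g c ≤ n) (h2 : ∀ c, c ∉ X → g c ≤ s) :
    ∑ c, g c ≤ X.card * n + n * s := by
  classical
  have h3 : ∀ c ∈ (univ : Finset (Fin n)), g c ≤ (if c ∈ X then n else 0) + s := by
    intro c _
    by_cases hc : c ∈ X
    · rw [if_pos hc]; have := h1 c hc; omega
    · rw [if_neg hc]; have := h2 c hc; omega
  refine (sum_le_sum h3).trans ?_
  rw [sum_add_distrib, sum_ite_mem]
  simp

end Vale.Agent.helper7.Rem
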