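import Vale.Agent.helper7.Rem.Common

namespace Vale.Agent.helper7.Rem

open Finset

variable {n : ℕ}

/-- The pattern with rows `1 0` and `0 1`. -/
def patD : Pat := ⟨true, false, false, true⟩

section
variable (A : Fin n → Fin n → Bool) (T : Finset (Fin n))

/-- The row pair has shown the first letter before column `c`. -/
def inv (c r' r : Fin n) : Prop := ∃ t ∈ T, t < c ∧ First A patD r' r t

/-- The tournament at column `c`. -/
def arr (c x y : Fin n) : Prop := (x < y ∧ ¬ inv A T c x y) ∨ (y < x ∧ inv A T c y x)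

lemma inv_split {c a b d : Fin n} (h : inv A T c a d) : inv A T c a b ∨ inv A T c b d := by
  obtain ⟨t, ht, htc, h1, h2⟩ := h
  cases hb : A b t with
  | false => left; exact ⟨t, ht, htc, h1, hb⟩
  | true => right; exact ⟨t, ht, htc, hb, h2⟩

variable (W : Finset (Fin n))
  (hex : ∀ r' r, r' ∉ W → r ∉ W → r' < r → ∀ t ∈ T, ∀ t' ∈ T, t < t' →
        ¬ (First A patD r' r t ∧ Second A patD r' r t'))

include hex

lemma inv_trans {c a b d : Fin n} (ha : a ∉ W) (hb : b ∉ W) (hd : d ∉ W) (hab : a < b) (hbd : b < d)
    (h1 : inv A T c a b) (h2 : inv A T c b d) : inv A T c a d := by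
  by_contra hcon
  obtain ⟨t1, ht1, ht1c, h11, h12⟩ := h1
  obtain ⟨t2, ht2, ht2c, h21, h22⟩ := h2
  have e1 : A d t1 = true := by
    cases hv : A d t1 with
    | true => rfl
    | false => exact absurd ⟨t1, ht1, ht1c, h11, hv⟩ hcon
  have e2 : A a t2 = false := by
    cases hv : A a t2 with
    | false => rfl
    | true => exact absurd ⟨t2, ht2, ht2c, hv, h22⟩ hcon
  simp only [patD] at h11 h12 h21 h22
  rcases lt_trichotomy t1 t2 with hlt | heq | hlt
  · exact hex a b ha hb hab t1 ht1 t2 ht2 hlt ⟨⟨h11, h12⟩, ⟨e2, h21⟩⟩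
  · subst heq
    rw [h12] at h21
    exact absurd h21 (by simp)
  · exact hex b d hb hd hbd t2 ht2 t1 ht1 hlt ⟨⟨h21, h22⟩, ⟨h12, e1⟩⟩

lemma arr_trans {c x y z : Fin n} (hx : x ∉ W) (hy : y ∉ W) (hz : z ∉ W)
    (h1 : arr A T c x y) (h2 : arr A T c y z) : arr A T c x z := by
  rcases h1 with ⟨h1a, h1b⟩ | ⟨h1a, h1b⟩ <;> rcases h2 with ⟨h2a, h2b⟩ | ⟨h2a, h2b⟩
  · -- x < y < z
    left
    refine ⟨h1a.trans h2a, fun h => ?_⟩
    rcases inv_split A T (b := y) h with h | h
    · exact h1b h
    · exact h2b h
  · -- x < y, z < y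
    rcases lt_trichotomy x z with hxz | hxz | hxz
    · left
      refine ⟨hxz, fun h => h1b ?_⟩
      exact inv_trans A T W hex hx hz hy hxz h2a h h2b
    · subst hxz
      exact absurd h2b h1b
    · right
      refine ⟨hxz, ?_⟩
      rcases inv_split A T (b := x) h2b with h | h
      · exact h
      · exact absurd h h1b
  · -- y < x, y < z
    rcases lt_trichotomy x z with hxz | hxz | hxz
    · left
      refine ⟨hxz, fun h => h2b ?_⟩
      exact inv_trans A T W hex hy hx hz h1a hxz h1b h
    · subst hxz
      exact absurd h1b h2b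
    · right
      refine ⟨hxz, ?_⟩
      rcases inv_split A T (b := z) h1b with h | h
      · exact absurd h h2b
      · exact h
  · -- z < y < x
    right
    exact ⟨h2a.trans h1a, inv_trans A T W hex hz hy hx h2a h1a h2b h1b⟩

omit hex

lemma arr_total {c x y : Fin n} (hne : x ≠ y) : arr A T c x y ∨ arr A T c y x := by
  classical
  rcases lt_or_gt_of_ne hne with h | h
  · by_cases hi : inv A T c x y
    · right; exact Or.inr ⟨h, hi⟩
    · left; exact Or.inl ⟨h, hi⟩
  · by_cases hi : inv A T c y x
    · left; exact Or.inr ⟨h, hi⟩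
    · right; exact Or.inl ⟨h, hi⟩

open Classical in
/-- Ones of column `c` among kept rows that come before `x` in the tournament. -/
noncomputable def before (c x : Fin n) : Finset (Fin n) :=
  univ.filter fun y => y ∉ W ∧ A y c = true ∧ arr A T c y x

open Classical in
/-- The rounded column: kept rows with at least `L` ones before them. -/
noncomputable def upSet (L : ℕ) (c : Fin n) : Finset (Fin n) :=
  univ.filter fun x => x ∉ W ∧ L ≤ (before A T W c x).card

include hex

lemma upSet_closed {L : ℕ} {c x w : Fin n} (hx : x ∈ upSet A T W L c) (hw : w ∉ W)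
    (h : arr A T c x w) : w ∈ upSet A T W L c := by
  classical
  simp only [upSet, mem_filter, mem_univ, true_and] at hx ⊢
  refine ⟨hw, hx.2.trans (card_le_card ?_)⟩
  intro y hy
  simp only [before, mem_filter, mem_univ, true_and] at hy ⊢
  exact ⟨hy.1, hy.2.1, arr_trans A T W hex hy.1 hx.1 hw hy.2.2 h⟩

omit hex

open Classical in
/-- The repaired matrix. -/
noncomputable def matB (X : Finset (Fin n)) (L : ℕ) (r c : Fin n) : Bool :=
  if r ∈ W ∨ c ∈ X then true
  else if c ∈ T then A r c
  else decide (r ∈ upSet A T W L c)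

include hex

/-- The repaired matrix has no copy. -/
theorem matB_free (X : Finset (Fin n)) (L : ℕ) (r' r c1 c2 : Fin n) (hr : r' < r) (hc : c1 < c2)
    (h1 : matB A T W X L r' c1 = true) (h2 : matB A T W X L r' c2 = false)
    (h3 : matB A T W X L r c1 = false) (h4 : matB A T W X L r c2 = true) : False := by
  classical
  unfold matB at h1 h2 h3 h4
  have hr'W : r' ∉ W := by
    intro h
    rw [if_pos (Or.inl h)] at h2
    exact absurd h2 (by simp)
  have hc2X : c2 ∉ X := by
    intro h
    rw [if_pos (Or.inr h)] at h2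
    exact absurd h2 (by simp)
  have hrW : r ∉ W := by
    intro h
    rw [if_pos (Or.inl h)] at h3
    exact absurd h3 (by simp)
  have hc1X : c1 ∉ X := by
    intro h
    rw [if_pos (Or.inr h)] at h3
    exact absurd h3 (by simp)
  rw [if_neg (by simp [hr'W, hc1X])] at h1
  rw [if_neg (by simp [hr'W, hc2X])] at h2
  rw [if_neg (by simp [hrW, hc1X])] at h3
  rw [if_neg (by simp [hrW, hc2X])] at h4
  -- the pair is inverted before c2
  have hinv : ∃ t ∈ T, t < c2 ∧ First A patD r' r t := by
    by_cases hc1T : c1 ∈ T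
    · rw [if_pos hc1T] at h1 h3
      exact ⟨c1, hc1T, hc, h1, h3⟩
    · rw [if_neg hc1T] at h1 h3
      have m1 : r' ∈ upSet A T W L c1 := of_decide_eq_true h1
      have m2 : r ∉ upSet A T W L c1 := of_decide_eq_false h3
      by_contra hcon
      apply m2
      apply upSet_closed A T W hex m1 hrW
      left
      refine ⟨hr, ?_⟩
      rintro ⟨t, ht, htc, hF⟩
      exact hcon ⟨t, ht, htc.trans hc, hF⟩
  obtain ⟨t, ht, htc, hF⟩ := hinv
  by_cases hc2T : c2 ∈ T
  · rw [if_pos hc2T] at h2 h4
    exact hex r' r hr'W hrW hr t ht c2 hc2T htc ⟨hF, h2, h4⟩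
  · rw [if_neg hc2T] at h2 h4
    have m1 : r ∈ upSet A T W L c2 := of_decide_eq_true h4
    have m2 : r' ∉ upSet A T W L c2 := of_decide_eq_false h2
    apply m2
    apply upSet_closed A T W hex m1 hr'W
    right
    exact ⟨hr, t, ht, htc, hF⟩

omit hex

/-- Zeros that got raised: bounded by the bad pairs. -/
lemma zeros_bound (X : Finset (Fin n)) (L : ℕ) (c : Fin n) (K2 e θ : ℕ) (hT : T.card ≤ K2)
    (hcop : ∀ t ∈ T, t < c → cop A patD t c ≤ e)
    (hfresh : (freshSet A patD T c).card < θ) :
    L * ((upSet A T W L c).filter fun x => A x c = false).card ≤ θ + K2 * e := by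
  classical
  set Zs := (upSet A T W L c).filter fun x => A x c = false with hZs
  -- pairs y before x
  let PS : Finset (Fin n × Fin n) := Zs.sigma (fun x => before A T W c x) |>.image fun q => (q.2, q.1)
  have hPS : ∑ x ∈ Zs, (before A T W c x).card = PS.card := by
    rw [card_image_of_injective, card_sigma]
    rintro ⟨a, b⟩ ⟨a', b'⟩ h
    simp only [Prod.mk.injEq] at h
    obtain ⟨h1, h2⟩ := h
    subst h1
    subst h2
    rfl
  have hlow : Zs.card * L ≤ PS.card := by
    rw [← hPS, ← smul_eq_mul]
    apply card_nsmul_le_sum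
    intro x hx
    have hx1 := (mem_filter.mp hx).1
    have hx2 := (mem_filter.mp hx1).2
    exact hx2.2
  let CU : Finset (Fin n × Fin n) := T.biUnion fun t => if t < c then copSet A patD t c else ∅
  have hCU : CU.card ≤ K2 * e := by
    refine card_biUnion_le.trans ?_
    calc ∑ t ∈ T, (if t < c then copSet A patD t c else ∅).card ≤ ∑ _t ∈ T, e := by
          apply sum_le_sum
          intro t ht
          by_cases htc : t < c
          · rw [if_pos htc]; exact hcop t ht htc
          · rw [if_neg htc]; simp
      _ = T.card * e := by simp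
      _ ≤ K2 * e := Nat.mul_le_mul_right _ hT
  have hsub : PS ⊆ freshSet A patD T c ∪ CU.image Prod.swap := by
    intro q hq
    obtain ⟨s, hs, rfl⟩ := mem_image.mp hq
    obtain ⟨hs1, hs2⟩ := mem_sigma.mp hs
    have hx0 : A s.1 c = false := (mem_filter.mp hs1).2
    have hy := (mem_filter.mp hs2).2
    obtain ⟨_, hy1, hy2⟩ := hy
    rcases hy2 with ⟨hlt, hni⟩ | ⟨hlt, hi⟩
    · apply mem_union_left
      apply mem_filter.mpr
      refine ⟨mem_univ _, hlt, ⟨hy1, hx0⟩, ?_⟩
      intro t ht htc hF
      exact hni ⟨t, ht, htc, hF⟩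
    · apply mem_union_right
      apply mem_image.mpr
      refine ⟨(s.1, s.2), ?_, rfl⟩
      obtain ⟨t, ht, htc, hF⟩ := hi
      apply mem_biUnion.mpr
      refine ⟨t, ht, ?_⟩
      rw [if_pos htc]
      apply mem_filter.mpr
      exact ⟨mem_univ _, hlt, hF, hx0, hy1⟩
  have hfin : PS.card ≤ (freshSet A patD T c).card + CU.card :=
    (card_le_card hsub).trans ((card_union_le _ _).trans
      (Nat.add_le_add_left card_image_le _))
  calc L * Zs.card = Zs.card * L := Nat.mul_comm _ _
    _ ≤ PS.card := hlow
    _ ≤ (freshSet A patD T c).card + CU.card := hfin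
    _ ≤ θ + K2 * e := by omega

/-- Ones that got lowered: few, by the tournament. -/
lemma ones_bound (L : ℕ) (c : Fin n) :
    (univ.filter fun y => y ∉ W ∧ A y c = true ∧ y ∉ upSet A T W L c).card ≤ 2 * L + 1 := by
  classical
  set Y := univ.filter fun y => y ∉ W ∧ A y c = true ∧ y ∉ upSet A T W L c with hY
  have hb : ∀ y ∈ Y, (Y.filter fun x => arr A T c x y).card ≤ L := by
    intro y hy
    have hy' := (mem_filter.mp hy).2
    have hlt : (before A T W c y).card < L := by
      by_contra hcon
      push Not at hcon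
      apply hy'.2.2
      simp only [upSet, mem_filter, mem_univ, true_and]
      exact ⟨hy'.1, hcon⟩
    refine le_trans (card_le_card ?_) hlt.le
    intro x hx
    have hx' := mem_filter.mp hx
    have hx2 := (mem_filter.mp hx'.1).2
    simp only [before, mem_filter, mem_univ, true_and]
    exact ⟨hx2.1, hx2.2.1, hx'.2⟩
  have := pair_bound Y (fun x y => arr A T c x y) ∅ L (by
    intro x _ y _
    by_cases hxy : x = y
    · exact Or.inl hxy
    · rcases arr_total A T (c := c) hxy with h | h
      · exact Or.inr (Or.inl h)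
      · exact Or.inr (Or.inr (Or.inl h))) (by
    intro y hy
    convert hb y hy)
  simp only [card_empty, add_zero] at this
  by_contra hcon
  push Not at hcon
  nlinarith

end

/-- Removal for the pattern `1 0 / 0 1`. -/
theorem removal_D (A : Fin n → Fin n → Bool) (K u : ℕ) (hK : 1 ≤ K) (hu : 1 ≤ u)
    (hn1 : K ^ 7 * u ≤ n) (hn : n < 2 * K ^ 7 * u) (hN : total A patD ≤ K ^ 10 * u ^ 4) :
    ∃ B : Fin n → Fin n → Bool,
      (∀ r' r c1 c2 : Fin n, r' < r → c1 < c2 → ¬ (B r' c1 = true ∧ B r' c2 = false ∧
        B r c1 = false ∧ B r c2 = true)) ∧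
      diffCount A B * K ≤ 20 * n * n := by
  classical
  obtain ⟨T, X, W, hT, hX, hW, hex, hcop, hfresh⟩ := structure_params A patD K u hK hu hn hN
  set a := 2 * K ^ 6 * u with ha
  have hKpos : 0 < K := hK
  have hupos : 0 < u := hu
  have hapos : 0 < a := by positivity
  refine ⟨matB A T W X a, ?_, ?_⟩
  · rintro r' r c1 c2 hr hc ⟨h1, h2, h3, h4⟩
    exact matB_free A T W hex X a r' r c1 c2 hr hc h1 h2 h3 h4
  -- column costs
  have hcost : ∀ c, c ∉ X → (univ.filter fun r => A r c ≠ matB A T W X a r c).card ≤
      W.card + 2 * a + (2 * a + 1) := by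
    intro c hc
    by_cases hcT : c ∈ T
    · have hsub : (univ.filter fun r => A r c ≠ matB A T W X a r c) ⊆ W := by
        intro r hr
        by_contra hrW
        have := (mem_filter.mp hr).2
        apply this
        unfold matB
        rw [if_neg (by simp [hrW, hc]), if_pos hcT]
      have := card_le_card hsub
      omega
    · -- zeros raised
      have hZ : ((upSet A T W a c).filter fun x => A x c = false).card ≤ 2 * a := by
        have h1 := zeros_bound A T W X a c (K ^ 2) (u * u) (a * a) hT
          (fun t ht htc => hcop t ht c hc htc) (hfresh c hc hcT)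
        have h2 : K ^ 2 * (u * u) ≤ a * a := by
          have : a * a = 4 * K ^ 10 * K ^ 2 * (u * u) := by rw [ha]; ring
          rw [this]
          have h3 : 1 ≤ 4 * K ^ 10 := by
            have : 0 < K ^ 10 := by positivity
            omega
          calc K ^ 2 * (u * u) = 1 * K ^ 2 * (u * u) := by ring
            _ ≤ 4 * K ^ 10 * K ^ 2 * (u * u) := by gcongr
        have h3 : a * ((upSet A T W a c).filter fun x => A x c = false).card ≤ a * (2 * a) := by
          calc _ ≤ a * a + K ^ 2 * (u * u) := h1
            _ ≤ a * a + a * a := by omega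
            _ = a * (2 * a) := by ring
        exact Nat.le_of_mul_le_mul_left h3 hapos
      have hO := ones_bound A T W a c
      have hsub : (univ.filter fun r => A r c ≠ matB A T W X a r c) ⊆
          W ∪ ((upSet A T W a c).filter fun x => A x c = false) ∪
            (univ.filter fun y => y ∉ W ∧ A y c = true ∧ y ∉ upSet A T W a c) := by
        intro r hr
        have hne := (mem_filter.mp hr).2
        by_cases hrW : r ∈ W
        · exact mem_union_left _ (mem_union_left _ hrW)
        · unfold matB at hne
          rw [if_neg (by simp [hrW, hc]), if_neg hcT] at hne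
          by_cases hm : r ∈ upSet A T W a c
          · rw [decide_eq_true hm] at hne
            apply mem_union_left
            apply mem_union_right
            apply mem_filter.mpr
            refine ⟨hm, ?_⟩
            cases hv : A r c with
            | false => rfl
            | true => rw [hv] at hne; exact absurd rfl hne
          · rw [decide_eq_false hm] at hne
            apply mem_union_right
            apply mem_filter.mpr
            refine ⟨mem_univ _, hrW, ?_, hm⟩
            cases hv : A r c with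
            | true => rfl
            | false => rw [hv] at hne; exact absurd rfl hne
      calc _ ≤ _ := card_le_card hsub
        _ ≤ _ := (card_union_le _ _).trans (Nat.add_le_add_right (card_union_le _ _) _)
        _ ≤ _ := by omega
  have hdiff := diffCount_le A (matB A T W X a) _ (fun c => le_refl _)
  have hsum := column_sum_le X (W.card + 2 * a + (2 * a + 1))
    (fun c => (univ.filter fun r => A r c ≠ matB A T W X a r c).card)
    (fun c _ => (card_filter_le _ _).trans (by simp)) hcost
  have hfinal : diffCount A (matB A T W X a) ≤ (3 * K ^ 6 * u) * n + n * (2 * K ^ 4 * u + 2 * a + (2 * a + 1)) := by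
    refine hdiff.trans (hsum.trans ?_)
    gcongr
  -- numerics
  have hK6 : K ^ 4 ≤ K ^ 6 := Nat.pow_le_pow_right hK (by norm_num)
  have hKu : 1 ≤ K ^ 6 * u := Nat.one_le_iff_ne_zero.mpr (by positivity)
  have hbig : 2 * K ^ 4 * u + 2 * a + (2 * a + 1) ≤ 17 * (K ^ 6 * u) := by
    rw [ha]
    have : K ^ 4 * u ≤ K ^ 6 * u := Nat.mul_le_mul_right _ hK6
    nlinarith
  have hf2 : diffCount A (matB A T W X a) ≤ 20 * (K ^ 6 * u) * n := by
    refine hfinal.trans ?_
    have : n * (2 * K ^ 4 * u + 2 * a + (2 * a + 1)) ≤ n * (17 * (K ^ 6 * u)) :=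
      Nat.mul_le_mul_left _ hbig
    nlinarith
  have hk7 : (K ^ 6 * u) * K ≤ n := by
    calc (K ^ 6 * u) * K = K ^ 7 * u := by ring
      _ ≤ n := hn1
  calc diffCount A (matB A T W X a) * K ≤ (20 * (K ^ 6 * u) * n) * K := Nat.mul_le_mul_right _ hf2
    _ = 20 * n * ((K ^ 6 * u) * K) := by ring
    _ ≤ 20 * n * n := Nat.mul_le_mul_left _ hk7

end Vale.Agent.helper7.Rem
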