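import Vale.Agent.helper7.Rem.Common

namespace Vale.Agent.helper7.Rem

open Finset

variable {n : ℕ}

/-- The pattern with rows `0 0` and `0 1`. -/
def patE : Pat := ⟨false, false, false, true⟩

section
variable (A : Fin n → Fin n → Bool) (T W0 : Finset (Fin n)) (e' : ℕ)

open Classical in
/-- Common zeros of two columns among the rows outside `W0`. -/
noncomputable def overlap (u t : Fin n) : Finset (Fin n) :=
  univ.filter fun y => y ∉ W0 ∧ A y u = false ∧ A y t = false

open Classical in
/-- The first `e'` elements of the overlap. -/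
noncomputable def trim (u t : Fin n) : Finset (Fin n) :=
  (overlap A W0 u t).filter fun y => ((overlap A W0 u t).filter fun z => z < y).card < e'

lemma card_rank_lt (S : Finset (Fin n)) (m : ℕ) :
    (S.filter fun y => (S.filter fun z => z < y).card < m).card ≤ m := by
  classical
  have : (S.filter fun y => (S.filter fun z => z < y).card < m).card ≤ (range m).card := by
    apply card_le_card_of_injOn (fun y => (S.filter fun z => z < y).card)
    · intro y hy
      exact mem_coe.mpr (mem_range.mpr (mem_filter.mp (mem_coe.mp hy)).2)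
    · intro y hy y' hy' h
      have hy1 := (mem_filter.mp (mem_coe.mp hy)).1
      have hy2 := (mem_filter.mp (mem_coe.mp hy')).1
      by_contra hne
      rcases lt_or_gt_of_ne hne with hlt | hlt
      · have : (S.filter fun z => z < y).card < (S.filter fun z => z < y').card := by
          apply card_lt_card
          refine ⟨?_, ?_⟩
          · intro z hz
            have := mem_filter.mp hz
            exact mem_filter.mpr ⟨this.1, this.2.trans hlt⟩
          · intro hsub
            have := hsub (mem_filter.mpr ⟨hy1, hlt⟩)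
            exact lt_irrefl _ (mem_filter.mp this).2
        simp only at h
        omega
      · have : (S.filter fun z => z < y').card < (S.filter fun z => z < y).card := by
          apply card_lt_card
          refine ⟨?_, ?_⟩
          · intro z hz
            have := mem_filter.mp hz
            exact mem_filter.mpr ⟨this.1, this.2.trans hlt⟩
          · intro hsub
            have := hsub (mem_filter.mpr ⟨hy2, hlt⟩)
            exact lt_irrefl _ (mem_filter.mp this).2
        simp only at h
        omega
  simpa using this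

open Classical in
/-- All rows removed: the cleaning set and the trimmed rows. -/
noncomputable def remRows : Finset (Fin n) :=
  W0 ∪ (T ×ˢ T).biUnion fun q => if q.1 < q.2 then trim A W0 e' q.1 q.2 else ∅

lemma remRows_card : (remRows A T W0 e').card ≤ W0.card + T.card * T.card * e' := by
  classical
  refine (card_union_le _ _).trans (Nat.add_le_add_left ?_ _)
  refine card_biUnion_le.trans ?_
  calc ∑ q ∈ T ×ˢ T, (if q.1 < q.2 then trim A W0 e' q.1 q.2 else ∅).card ≤ ∑ _q ∈ T ×ˢ T, e' := by
        apply sum_le_sum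
        intro q _
        by_cases h : q.1 < q.2
        · rw [if_pos h]; exact card_rank_lt _ _
        · rw [if_neg h]; simp
    _ = T.card * T.card * e' := by simp [card_product]

lemma W0_sub {x : Fin n} (h : x ∉ remRows A T W0 e') : x ∉ W0 := by
  classical
  exact fun h' => h (mem_union_left _ h')

lemma rank_large {u t o : Fin n} (hu : u ∈ T) (ht : t ∈ T) (hut : u < t)
    (ho : o ∉ remRows A T W0 e') (ho1 : A o u = false) (ho2 : A o t = false) :
    e' ≤ ((overlap A W0 u t).filter fun z => z < o).card := by
  classical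
  by_contra hcon
  push Not at hcon
  apply ho
  apply mem_union_right
  apply mem_biUnion.mpr
  refine ⟨(u, t), mem_product.mpr ⟨hu, ht⟩, ?_⟩
  rw [if_pos hut]
  apply mem_filter.mpr
  refine ⟨?_, hcon⟩
  exact mem_filter.mpr ⟨mem_univ _, W0_sub A T W0 e' ho, ho1, ho2⟩

/-- Direct comparability before column `c`. -/
def dir (c x y : Fin n) : Prop :=
  x ∉ remRows A T W0 e' ∧ y ∉ remRows A T W0 e' ∧ x < y ∧
    ∃ t ∈ T, t < c ∧ A x t = false ∧ A y t = false

/-- The order before column `c`. -/
def ord (c : Fin n) : Fin n → Fin n → Prop := Relation.ReflTransGen (dir A T W0 e' c)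

variable {A T W0 e'}

lemma ord_nat {c x y : Fin n} (h : ord A T W0 e' c x y) : x ≤ y := by
  induction h with
  | refl => exact le_refl _
  | tail _ h2 ih => exact ih.trans h2.2.2.1.le

lemma ord_mono {c c' : Fin n} (hc : c ≤ c') {x y : Fin n} (h : ord A T W0 e' c x y) :
    ord A T W0 e' c' x y := by
  induction h with
  | refl => exact Relation.ReflTransGen.refl
  | tail _ h2 ih =>
    obtain ⟨h1, h2, h3, t, ht, htc, h4, h5⟩ := h2
    exact ih.tail ⟨h1, h2, h3, t, ht, lt_of_lt_of_le htc hc, h4, h5⟩

lemma ord_mem_right {c x y : Fin n} (h : ord A T W0 e' c x y) (hx : x ∉ remRows A T W0 e') :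
    y ∉ remRows A T W0 e' := by
  induction h with
  | refl => exact hx
  | tail _ h2 _ => exact h2.2.1

variable (hex : ∀ r' r, r' ∉ W0 → r ∉ W0 → r' < r → ∀ t ∈ T, ∀ t' ∈ T, t < t' →
        ¬ (First A patE r' r t ∧ Second A patE r' r t'))

include hex

/-- In the exact part: zeros propagate along later columns. -/
lemma exact_zero {a b t t' : Fin n} (ha : a ∉ W0) (hb : b ∉ W0) (hab : a < b) (ht : t ∈ T)
    (ht' : t' ∈ T) (htt' : t < t') (h1 : A a t = false) (h2 : A b t = false)
    (h3 : A a t' = false) : A b t' = false := by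
  cases hv : A b t' with
  | false => rfl
  | true => exact absurd ⟨⟨h1, h2⟩, ⟨h3, hv⟩⟩ (hex a b ha hb hab t ht t' ht' htt')

lemma dir_confl {c a b b' : Fin n} (h1 : dir A T W0 e' c a b) (h2 : dir A T W0 e' c a b') :
    b = b' ∨ dir A T W0 e' c b b' ∨ dir A T W0 e' c b' b := by
  obtain ⟨ha, hb, hab, t, ht, htc, h11, h12⟩ := h1
  obtain ⟨_, hb', hab', t', ht', htc', h21, h22⟩ := h2
  have hcommon : ∃ s ∈ T, s < c ∧ A b s = false ∧ A b' s = false := by
    rcases lt_trichotomy t t' with hlt | heq | hlt
    · exact ⟨t', ht', htc', exact_zero hex (W0_sub A T W0 e' ha) (W0_sub A T W0 e' hb) hab ht ht' hlt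
        h11 h12 h21, h22⟩
    · subst heq
      exact ⟨t, ht, htc, h12, h22⟩
    · exact ⟨t, ht, htc, h12, exact_zero hex (W0_sub A T W0 e' ha) (W0_sub A T W0 e' hb') hab' ht' ht
        hlt h21 h22 h11⟩
  obtain ⟨s, hs, hsc, hs1, hs2⟩ := hcommon
  rcases lt_trichotomy b b' with hlt | heq | hlt
  · right; left; exact ⟨hb, hb', hlt, s, hs, hsc, hs1, hs2⟩
  · left; exact heq
  · right; right; exact ⟨hb', hb, hlt, s, hs, hsc, hs2, hs1⟩

lemma ord_dir_cases {c a y b : Fin n} (h : ord A T W0 e' c a y) (hb : dir A T W0 e' c a b) :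
    ord A T W0 e' c b y ∨ ord A T W0 e' c y b := by
  induction h using Relation.ReflTransGen.head_induction_on generalizing b with
  | refl => right; exact Relation.ReflTransGen.single hb
  | head h1 h2 ih =>
    rename_i a a1
    rcases dir_confl hex h1 hb with rfl | h3 | h3
    · left; exact h2
    · exact ih h3
    · left; exact (Relation.ReflTransGen.single h3).trans h2

/-- Above any element the order is a chain. -/
lemma ord_chain {c a y y' : Fin n} (h : ord A T W0 e' c a y) (h' : ord A T W0 e' c a y') :
    ord A T W0 e' c y y' ∨ ord A T W0 e' c y' y := by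
  induction h' using Relation.ReflTransGen.head_induction_on generalizing y with
  | refl => right; exact h
  | head h1 h2 ih =>
    rcases ord_dir_cases hex h h1 with h3 | h3
    · exact ih h3
    · left; exact h3.trans h2

omit hex

/-- The elements of the zero set of `c` below `x`. -/
noncomputable def belowSet (A : Fin n → Fin n → Bool) (T W0 : Finset (Fin n)) (e' : ℕ)
    (c x : Fin n) : Finset (Fin n) := by
  classical
  exact univ.filter fun z => z ∉ remRows A T W0 e' ∧ A z c = false ∧ ord A T W0 e' c z x

lemma mem_belowSet {c x z : Fin n} : z ∈ belowSet A T W0 e' c x ↔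
    z ∉ remRows A T W0 e' ∧ A z c = false ∧ ord A T W0 e' c z x := by
  classical
  simp [belowSet]

/-- The rounded column. -/
noncomputable def filt (A : Fin n → Fin n → Bool) (T W0 : Finset (Fin n)) (e' s : ℕ)
    (c : Fin n) : Finset (Fin n) := by
  classical
  exact univ.filter fun x => x ∉ remRows A T W0 e' ∧ s < (belowSet A T W0 e' c x).card

lemma mem_filt {s : ℕ} {c x : Fin n} : x ∈ filt A T W0 e' s c ↔
    x ∉ remRows A T W0 e' ∧ s < (belowSet A T W0 e' c x).card := by
  classical
  simp [filt]

lemma filt_closed {s : ℕ} {c x w : Fin n} (hx : x ∈ filt A T W0 e' s c)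
    (h : ord A T W0 e' c x w) : w ∈ filt A T W0 e' s c := by
  rw [mem_filt] at hx ⊢
  refine ⟨ord_mem_right h hx.1, lt_of_lt_of_le hx.2 (card_le_card ?_)⟩
  intro z hz
  rw [mem_belowSet] at hz ⊢
  exact ⟨hz.1, hz.2.1, hz.2.2.trans h⟩

/-- Pairs of zeros of `c` are comparable unless they are counted as new. -/
lemma compare_or_fresh {c x y : Fin n} (hx : x ∉ remRows A T W0 e') (hy : y ∉ remRows A T W0 e')
    (hx0 : A x c = false) (hy0 : A y c = false) :
    x = y ∨ ord A T W0 e' c x y ∨ ord A T W0 e' c y x ∨
      (x, y) ∈ freshSet A patE T c ∪ (freshSet A patE T c).image Prod.swap := by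
  classical
  rcases lt_trichotomy x y with hlt | heq | hlt
  · by_cases hcom : ∃ t ∈ T, t < c ∧ A x t = false ∧ A y t = false
    · right; left
      exact Relation.ReflTransGen.single ⟨hx, hy, hlt, hcom⟩
    · right; right; right
      apply mem_union_left
      apply mem_filter.mpr
      refine ⟨mem_univ _, hlt, ⟨hx0, hy0⟩, ?_⟩
      rintro t ht htc ⟨h1, h2⟩
      exact hcom ⟨t, ht, htc, h1, h2⟩
  · left; exact heq
  · by_cases hcom : ∃ t ∈ T, t < c ∧ A y t = false ∧ A x t = false
    · right; right; left
      exact Relation.ReflTransGen.single ⟨hy, hx, hlt, hcom⟩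
    · right; right; right
      apply mem_union_right
      apply mem_image.mpr
      refine ⟨(y, x), mem_filter.mpr ⟨mem_univ _, hlt, ⟨hy0, hx0⟩, ?_⟩, rfl⟩
      rintro t ht htc ⟨h1, h2⟩
      exact hcom ⟨t, ht, htc, h1, h2⟩

lemma card_fresh2 (c : Fin n) :
    (freshSet A patE T c ∪ (freshSet A patE T c).image Prod.swap).card ≤
      2 * (freshSet A patE T c).card := by
  classical
  refine (card_union_le _ _).trans ?_
  have := card_image_le (s := freshSet A patE T c) (f := Prod.swap)
  omega

include hex

/-- The rounded column is a chain. -/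
lemma filt_chain {s θ : ℕ} {c x y : Fin n} (hθ : 2 * θ ≤ s * s)
    (hfresh : (freshSet A patE T c).card < θ)
    (hx : x ∈ filt A T W0 e' s c) (hy : y ∈ filt A T W0 e' s c) :
    ord A T W0 e' c x y ∨ ord A T W0 e' c y x := by
  classical
  by_contra hcon
  push Not at hcon
  obtain ⟨hc1, hc2⟩ := hcon
  rw [mem_filt] at hx hy
  have hsub : belowSet A T W0 e' c x ×ˢ belowSet A T W0 e' c y ⊆
      freshSet A patE T c ∪ (freshSet A patE T c).image Prod.swap := by
    intro q hq
    obtain ⟨hq1, hq2⟩ := mem_product.mp hq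
    rw [mem_belowSet] at hq1 hq2
    have := compare_or_fresh (c := c) (x := q.1) (y := q.2) hq1.1 hq2.1 hq1.2.1 hq2.2.1
    rcases this with h | h | h | h
    · exfalso
      have h3 : ord A T W0 e' c q.1 y := by rw [h]; exact hq2.2.2
      rcases ord_chain hex hq1.2.2 h3 with h4 | h4
      · exact hc1 h4
      · exact hc2 h4
    · exfalso
      rcases ord_chain hex hq1.2.2 (h.trans hq2.2.2) with h4 | h4
      · exact hc1 h4
      · exact hc2 h4
    · exfalso
      rcases ord_chain hex (h.trans hq1.2.2) hq2.2.2 with h4 | h4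
      · exact hc1 h4
      · exact hc2 h4
    · exact h
  have h1 := card_le_card hsub
  rw [card_product] at h1
  have h2 := card_fresh2 (A := A) (T := T) c
  have h3 : (s + 1) * (s + 1) ≤ (belowSet A T W0 e' c x).card * (belowSet A T W0 e' c y).card :=
    Nat.mul_le_mul hx.2 hy.2
  nlinarith

omit hex

/-- Few zeros of `c` stay outside the rounded column. -/
lemma zeros_out_bound {s : ℕ} (c : Fin n) :
    (univ.filter fun y => y ∉ remRows A T W0 e' ∧ A y c = false ∧ y ∉ filt A T W0 e' s c).card *
      (univ.filter fun y => y ∉ remRows A T W0 e' ∧ A y c = false ∧ y ∉ filt A T W0 e' s c).card ≤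
      (univ.filter fun y => y ∉ remRows A T W0 e' ∧ A y c = false ∧ y ∉ filt A T W0 e' s c).card +
      2 * s * (univ.filter fun y => y ∉ remRows A T W0 e' ∧ A y c = false ∧
        y ∉ filt A T W0 e' s c).card + 2 * (freshSet A patE T c).card := by
  classical
  set Y := univ.filter fun y => y ∉ remRows A T W0 e' ∧ A y c = false ∧ y ∉ filt A T W0 e' s c
    with hY
  have hb : ∀ y ∈ Y, (Y.filter fun x => ord A T W0 e' c x y).card ≤ s := by
    intro y hy
    have hy' := (mem_filter.mp hy).2
    have hle : (belowSet A T W0 e' c y).card ≤ s := by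
      by_contra hcon
      push Not at hcon
      apply hy'.2.2
      rw [mem_filt]
      exact ⟨hy'.1, hcon⟩
    refine le_trans (card_le_card ?_) hle
    intro x hx
    have hx' := mem_filter.mp hx
    have hx2 := (mem_filter.mp hx'.1).2
    rw [mem_belowSet]
    exact ⟨hx2.1, hx2.2.1, hx'.2⟩
  have := pair_bound Y (fun x y => ord A T W0 e' c x y)
    (freshSet A patE T c ∪ (freshSet A patE T c).image Prod.swap) s (by
      intro x hx y hy
      have hx2 := (mem_filter.mp hx).2
      have hy2 := (mem_filter.mp hy).2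
      exact compare_or_fresh hx2.1 hy2.1 hx2.2.1 hy2.2.1) (by
      intro y hy
      convert hb y hy)
  have h2 := card_fresh2 (A := A) (T := T) c
  omega

end

section exceptional

variable {A : Fin n → Fin n → Bool} {T W0 : Finset (Fin n)} {e' : ℕ}

open Classical in
/-- Exceptional rows for a column `c`, given thresholds `x`. -/
noncomputable def badSet (A : Fin n → Fin n → Bool) (T W0 : Finset (Fin n)) (c : Fin n)
    (x : Fin n → ℕ) : Finset (Fin n) :=
  T.biUnion fun t => if t < c then
    (univ.filter fun w => w ∉ W0 ∧ A w t = false ∧ A w c = false ∧ w.val < x t) ∪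
    (univ.filter fun w => w ∉ W0 ∧ A w t = false ∧ A w c = true ∧ x t ≤ w.val) else ∅

lemma mem_bad_zero {c : Fin n} {x : Fin n → ℕ} {t w : Fin n} (ht : t ∈ T) (htc : t < c)
    (h1 : w ∉ W0) (h2 : A w t = false) (h3 : A w c = false) (h4 : w.val < x t) :
    w ∈ badSet A T W0 c x := by
  classical
  apply mem_biUnion.mpr
  refine ⟨t, ht, ?_⟩
  rw [if_pos htc]
  exact mem_union_left _ (mem_filter.mpr ⟨mem_univ _, h1, h2, h3, h4⟩)

lemma mem_bad_one {c : Fin n} {x : Fin n → ℕ} {t w : Fin n} (ht : t ∈ T) (htc : t < c)
    (h1 : w ∉ W0) (h2 : A w t = false) (h3 : A w c = true) (h4 : x t ≤ w.val) :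
    w ∈ badSet A T W0 c x := by
  classical
  apply mem_biUnion.mpr
  refine ⟨t, ht, ?_⟩
  rw [if_pos htc]
  exact mem_union_right _ (mem_filter.mpr ⟨mem_univ _, h1, h2, h3, h4⟩)

/-- Thresholds exist for every column of `T` to the left of `c`. -/
lemma exists_thresholds (c : Fin n) (e : ℕ) (he : 1 ≤ e)
    (hcop : ∀ t ∈ T, t < c → cop A patE t c ≤ e * e) :
    ∃ x : Fin n → ℕ, (badSet A T W0 c x).card ≤ T.card * (2 * e) := by
  classical
  have h : ∀ t : Fin n, ∃ y : ℕ, t ∈ T → t < c →
      (univ.filter fun w => w ∉ W0 ∧ A w t = false ∧ A w c = false ∧ w.val < y).card ≤ e ∧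
      (univ.filter fun w => w ∉ W0 ∧ A w t = false ∧ A w c = true ∧ y ≤ w.val).card ≤ e := by
    intro t
    by_cases ht : t ∈ T ∧ t < c
    · let PP : Finset (Fin n) := univ.filter fun w => w ∉ W0 ∧ A w t = false ∧ A w c = false
      let QQ : Finset (Fin n) := univ.filter fun w => w ∉ W0 ∧ A w t = false ∧ A w c = true
      have hsub : ((PP ×ˢ QQ).filter fun q => q.1 < q.2) ⊆ copSet A patE t c := by
        intro q hq
        have hq1 := mem_filter.mp hq
        have hq2 := mem_product.mp hq1.1
        have h1 := (mem_filter.mp hq2.1).2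
        have h2 := (mem_filter.mp hq2.2).2
        apply mem_filter.mpr
        exact ⟨mem_univ _, hq1.2, ⟨h1.2.1, h2.2.1⟩, ⟨h1.2.2, h2.2.2⟩⟩
      obtain ⟨y, hy1, hy2⟩ := threshold PP QQ e he ((card_le_card hsub).trans (hcop t ht.1 ht.2))
      refine ⟨y, fun _ _ => ⟨le_trans (card_le_card ?_) hy1, le_trans (card_le_card ?_) hy2⟩⟩
      · intro w hw
        have := (mem_filter.mp hw).2
        exact mem_filter.mpr ⟨mem_filter.mpr ⟨mem_univ _, this.1, this.2.1, this.2.2.1⟩, this.2.2.2⟩
      · intro w hw
        have := (mem_filter.mp hw).2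
        exact mem_filter.mpr ⟨mem_filter.mpr ⟨mem_univ _, this.1, this.2.1, this.2.2.1⟩, this.2.2.2⟩
    · exact ⟨0, fun h1 h2 => absurd ⟨h1, h2⟩ ht⟩
  choose x hx using h
  refine ⟨x, card_biUnion_le.trans ?_⟩
  calc _ ≤ ∑ _t ∈ T, (2 * e) := by
        apply sum_le_sum
        intro t ht
        by_cases htc : t < c
        · rw [if_pos htc]
          obtain ⟨h1, h2⟩ := hx t ht htc
          exact (card_union_le _ _).trans (by omega)
        · rw [if_neg htc]; simp
    _ = T.card * (2 * e) := by simp

variable (hex : ∀ r' r, r' ∉ W0 → r ∉ W0 → r' < r → ∀ t ∈ T, ∀ t' ∈ T, t < t' →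
        ¬ (First A patE r' r t ∧ Second A patE r' r t'))

include hex

/-- The propagation lemma: between a reached element and the threshold all rows are exceptional. -/
lemma between_bad {c z : Fin n} {x : Fin n → ℕ} (hcard : (badSet A T W0 c x).card < e')
    (hz0 : A z c = false) (hzW : z ∉ W0) (hzB : z ∉ badSet A T W0 c x) :
    ∀ o : Fin n, ord A T W0 e' c z o → ∀ t ∈ T, t < c → o ∉ W0 → A o t = false →
      ∀ w : Fin n, w ∉ W0 → A w t = false → o ≤ w → w.val < x t → w ∈ badSet A T W0 c x := by
  classical
  intro o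
  induction o using WellFoundedLT.induction with
  | ind o ih =>
    intro hzo t ht htc ho hot w hw hwt how hwx
    rcases Relation.ReflTransGen.cases_tail hzo with h | ⟨p, hzp, hpo⟩
    · -- o = z
      subst h
      exfalso
      by_cases hlt : o.val < x t
      · exact hzB (mem_bad_zero ht htc hzW hot hz0 hlt)
      · have : o.val ≤ w.val := how
        omega
    · obtain ⟨hpR, hoR, hpo', u, hu, huc, hpu, hou⟩ := hpo
      have hpW := W0_sub A T W0 e' hpR
      -- the induction applied to p
      have ihp := ih p hpo' hzp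
      by_cases hpt : A p t = false
      · exact ihp t ht htc hpW hpt w hw hwt (hpo'.le.trans how) hwx
      · have hpt1 : A p t = true := by simpa using hpt
        rcases lt_trichotomy t u with htu | htu | htu
        · -- t < u : w lies on the chain of u
          have hwu : A w u = false := by
            rcases eq_or_lt_of_le how with h | h
            · rw [← h]; exact hou
            · exact exact_zero hex ho hw h ht hu htu hot hwt hou
          by_cases hwxu : w.val < x u
          · exact ihp u hu huc hpW hpu w hw hwu (hpo'.le.trans how) hwxu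
          · cases hv : A w c with
            | false => exact mem_bad_zero ht htc hw hwt hv hwx
            | true => exact mem_bad_one hu huc hw hwu hv (not_lt.mp hwxu)
        · subst htu
          rw [hpu] at hpt1
          exact absurd hpt1 (by simp)
        · -- u < t : trimmed, contradiction
          exfalso
          have hrank := rank_large A T W0 e' hu ht htu hoR hou hot
          have hsub : ((overlap A W0 u t).filter fun y => y < o) ⊆ badSet A T W0 c x := by
            intro y hy
            have hy1 := mem_filter.mp hy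
            have hy2 := (mem_filter.mp hy1.1).2
            obtain ⟨hyW, hyu, hyt⟩ := hy2
            have hpy : p < y := by
              rcases lt_trichotomy p y with h | h | h
              · exact h
              · subst h; rw [hpt1] at hyt; exact absurd hyt (by simp)
              · exfalso
                exact hex y p hyW hpW h u hu t ht htu ⟨⟨hyu, hpu⟩, ⟨hyt, hpt1⟩⟩
            have hyxt : y.val < x t := by
              have : y.val < o.val := hy1.2
              have : o.val ≤ w.val := how
              omega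
            by_cases hyxu : y.val < x u
            · exact ihp u hu huc hpW hpu y hyW hyu hpy.le hyxu
            · cases hv : A y c with
              | false => exact mem_bad_zero ht htc hyW hyt hv hyxt
              | true => exact mem_bad_one hu huc hyW hyu hv (not_lt.mp hyxu)
          have := card_le_card hsub
          omega

/-- Rows above a good zero are zeros or exceptional. -/
lemma above_good {c z y : Fin n} {x : Fin n → ℕ} (hcard : (badSet A T W0 c x).card < e')
    (hz0 : A z c = false) (hzW : z ∉ W0) (hzB : z ∉ badSet A T W0 c x)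
    (hzy : ord A T W0 e' c z y) (hy1 : A y c = true) : y ∈ badSet A T W0 c x := by
  classical
  rcases Relation.ReflTransGen.cases_tail hzy with h | ⟨p, hzp, hpy⟩
  · subst h
    rw [hz0] at hy1
    exact absurd hy1 (by simp)
  · obtain ⟨_, hyR, _, u, hu, huc, _, hyu⟩ := hpy
    have hyW := W0_sub A T W0 e' hyR
    by_cases hlt : y.val < x u
    · exact between_bad hex hcard hz0 hzW hzB y hzy u hu huc hyW hyu y hyW hyu le_rfl hlt
    · exact mem_bad_one hu huc hyW hyu hy1 (not_lt.mp hlt)

/-- Rounded entries that were ones are exceptional. -/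
lemma filt_one_bad {s : ℕ} {c y : Fin n} {x : Fin n → ℕ} (hcard : (badSet A T W0 c x).card < e')
    (hs : (badSet A T W0 c x).card ≤ s) (hy : y ∈ filt A T W0 e' s c) (hy1 : A y c = true) :
    y ∈ badSet A T W0 c x := by
  classical
  rw [mem_filt] at hy
  have : ∃ z ∈ belowSet A T W0 e' c y, z ∉ badSet A T W0 c x := by
    by_contra hcon
    push Not at hcon
    have := card_le_card (show belowSet A T W0 e' c y ⊆ badSet A T W0 c x from hcon)
    omega
  obtain ⟨z, hz, hzB⟩ := this
  rw [mem_belowSet] at hz
  exact above_good hex hcard hz.2.1 (W0_sub A T W0 e' hz.1) hzB hz.2.2 hy1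

end exceptional

section matrix

variable (A : Fin n → Fin n → Bool) (T W0 : Finset (Fin n)) (e' : ℕ)

open Classical in
/-- The repaired matrix. -/
noncomputable def matE (X : Finset (Fin n)) (s : ℕ) (r c : Fin n) : Bool :=
  if r ∈ remRows A T W0 e' ∨ c ∈ X then true
  else if c ∈ T then A r c
  else !decide (r ∈ filt A T W0 e' s c)

variable {A T W0 e'}
variable (hex : ∀ r' r, r' ∉ W0 → r ∉ W0 → r' < r → ∀ t ∈ T, ∀ t' ∈ T, t < t' →
        ¬ (First A patE r' r t ∧ Second A patE r' r t'))

include hex

lemma zero_propagates {c x y : Fin n} (hc : c ∈ T) (h : ord A T W0 e' c x y)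
    (hx : x ∉ remRows A T W0 e') (h0 : A x c = false) : A y c = false := by
  induction h with
  | refl => exact h0
  | tail h1 h2 ih =>
    obtain ⟨ha, hb, hab, t, ht, htc, h3, h4⟩ := h2
    exact exact_zero hex (W0_sub A T W0 e' ha) (W0_sub A T W0 e' hb) hab ht hc htc h3 h4 ih

/-- The repaired matrix has no copy. -/
theorem matE_free (X : Finset (Fin n)) (s θ : ℕ) (hθ : 2 * θ ≤ s * s)
    (hfresh : ∀ c, c ∉ X → c ∉ T → (freshSet A patE T c).card < θ)
    (r' r c1 c2 : Fin n) (hr : r' < r) (hc : c1 < c2)
    (h1 : matE A T W0 e' X s r' c1 = false) (h2 : matE A T W0 e' X s r' c2 = false)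
    (h3 : matE A T W0 e' X s r c1 = false) (h4 : matE A T W0 e' X s r c2 = true) : False := by
  classical
  unfold matE at h1 h2 h3 h4
  have hr'W : r' ∉ remRows A T W0 e' := by
    intro h
    rw [if_pos (Or.inl h)] at h2
    exact absurd h2 (by simp)
  have hc2X : c2 ∉ X := by
    intro h
    rw [if_pos (Or.inr h)] at h2
    exact absurd h2 (by simp)
  have hrW : r ∉ remRows A T W0 e' := by
    intro h
    rw [if_pos (Or.inl h)] at h3
    exact absurd h3 (by simp)
  have hc1X : c1 ∉ X := by
    intro h
    rw [if_pos (Or.inr h)] at h3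
    exact absurd h3 (by simp)
  rw [if_neg (by simp [hr'W, hc1X])] at h1
  rw [if_neg (by simp [hr'W, hc2X])] at h2
  rw [if_neg (by simp [hrW, hc1X])] at h3
  rw [if_neg (by simp [hrW, hc2X])] at h4
  have hord : ord A T W0 e' c2 r' r := by
    by_cases hc1T : c1 ∈ T
    · rw [if_pos hc1T] at h1 h3
      exact Relation.ReflTransGen.single ⟨hr'W, hrW, hr, c1, hc1T, hc, h1, h3⟩
    · rw [if_neg hc1T] at h1 h3
      have m1 : r' ∈ filt A T W0 e' s c1 := by simpa using h1
      have m2 : r ∈ filt A T W0 e' s c1 := by simpa using h3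
      rcases filt_chain hex hθ (hfresh c1 hc1X hc1T) m1 m2 with h5 | h5
      · exact ord_mono hc.le h5
      · exact absurd (ord_nat h5) (not_le.mpr hr)
  by_cases hc2T : c2 ∈ T
  · rw [if_pos hc2T] at h2 h4
    have := zero_propagates hex hc2T hord hr'W h2
    rw [this] at h4
    exact absurd h4 (by simp)
  · rw [if_neg hc2T] at h2 h4
    have m1 : r' ∈ filt A T W0 e' s c2 := by simpa using h2
    have m2 : r ∉ filt A T W0 e' s c2 := by simpa using h4
    exact m2 (filt_closed m1 hord)

end matrix

/-- The cost of one column. -/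
lemma column_cost (A : Fin n → Fin n → Bool) (T X W0 : Finset (Fin n)) (e' s a u : ℕ) (hu : 1 ≤ u)
    (hs : s = 2 * a) (he' : e' = T.card * (2 * u) + 1)
    (hTs : T.card * (2 * u) ≤ s)
    (hex : ∀ r' r, r' ∉ W0 → r ∉ W0 → r' < r → ∀ t ∈ T, ∀ t' ∈ T, t < t' →
        ¬ (First A patE r' r t ∧ Second A patE r' r t'))
    (hcop : ∀ t ∈ T, ∀ c, c ∉ X → t < c → cop A patE t c ≤ u * u)
    (hfresh : ∀ c, c ∉ X → c ∉ T → (freshSet A patE T c).card < a * a)
    (c : Fin n) (hc : c ∉ X) :
    (univ.filter fun r => A r c ≠ matE A T W0 e' X s r c).card ≤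
      (remRows A T W0 e').card + T.card * (2 * u) + (5 * a + 1) := by
  classical
  by_cases hcT : c ∈ T
  · have hsub : (univ.filter fun r => A r c ≠ matE A T W0 e' X s r c) ⊆ remRows A T W0 e' := by
      intro r hr
      by_contra hrW
      have := (mem_filter.mp hr).2
      apply this
      unfold matE
      rw [if_neg (by simp [hrW, hc]), if_pos hcT]
    have := card_le_card hsub
    omega
  · obtain ⟨x, hx⟩ := exists_thresholds (A := A) (T := T) (W0 := W0) c u hu
      (fun t ht htc => hcop t ht c hc htc)
    have hxe : (badSet A T W0 c x).card < e' := by omega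
    have hxs : (badSet A T W0 c x).card ≤ s := hx.trans hTs
    have hfr := hfresh c hc hcT
    have hY := zeros_out_bound (A := A) (T := T) (W0 := W0) (e' := e') (s := s) c
    generalize hYdef : (univ.filter fun y => y ∉ remRows A T W0 e' ∧ A y c = false ∧
      y ∉ filt A T W0 e' s c) = Y at hY
    have hYb : Y.card ≤ 5 * a + 1 := by
      by_contra hcon
      push Not at hcon
      have h5 : 5 * a + 2 ≤ Y.card := hcon
      have h6 : (5 * a + 2) * Y.card ≤ Y.card * Y.card := Nat.mul_le_mul_right _ h5
      have h7 : Y.card + 2 * s * Y.card + 2 * (freshSet A patE T c).card ≤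
          Y.card + 4 * a * Y.card + 2 * (a * a) := by
        rw [hs]
        have : 2 * (2 * a) * Y.card = 4 * a * Y.card := by ring
        omega
      have h8 : a * (5 * a + 2) ≤ a * Y.card := Nat.mul_le_mul_left _ h5
      nlinarith
    have hsub : (univ.filter fun r => A r c ≠ matE A T W0 e' X s r c) ⊆
        remRows A T W0 e' ∪ badSet A T W0 c x ∪ Y := by
      intro r hr
      have hne := (mem_filter.mp hr).2
      by_cases hrW : r ∈ remRows A T W0 e'
      · exact mem_union_left _ (mem_union_left _ hrW)
      · unfold matE at hne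
        rw [if_neg (by simp [hrW, hc]), if_neg hcT] at hne
        by_cases hm : r ∈ filt A T W0 e' s c
        · have hv : A r c = true := by
            cases hv : A r c with
            | true => rfl
            | false => simp [hv, hm] at hne
          exact mem_union_left _ (mem_union_right _
            (filt_one_bad hex hxe hxs hm hv))
        · have hv : A r c = false := by
            cases hv : A r c with
            | false => rfl
            | true => simp [hv, hm] at hne
          apply mem_union_right
          rw [← hYdef]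
          exact mem_filter.mpr ⟨mem_univ _, hrW, hv, hm⟩
    calc _ ≤ _ := card_le_card hsub
      _ ≤ _ := (card_union_le _ _).trans (Nat.add_le_add_right (card_union_le _ _) _)
      _ ≤ _ := by omega

/-- Removal for the pattern `0 0 / 0 1`. -/
theorem removal_E (A : Fin n → Fin n → Bool) (K u : ℕ) (hK : 1 ≤ K) (hu : 1 ≤ u)
    (hn1 : K ^ 7 * u ≤ n) (hn : n < 2 * K ^ 7 * u) (hN : total A patE ≤ K ^ 10 * u ^ 4) :
    ∃ B : Fin n → Fin n → Bool,
      (∀ r' r c1 c2 : Fin n, r' < r → c1 < c2 → ¬ (B r' c1 = false ∧ B r' c2 = false ∧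
        B r c1 = false ∧ B r c2 = true)) ∧
      diffCount A B * K ≤ 30 * n * n := by
  classical
  obtain ⟨T, X, W0, hT, hX, hW, hex, hcop, hfresh⟩ := structure_params A patE K u hK hu hn hN
  have hKpos : 0 < K := hK
  have hupos : 0 < u := hu
  obtain ⟨a, ha⟩ : ∃ a, a = 2 * K ^ 6 * u := ⟨_, rfl⟩
  rw [← ha] at hfresh
  have hapos : 0 < a := by rw [ha]; positivity
  obtain ⟨e', he'⟩ : ∃ e', e' = T.card * (2 * u) + 1 := ⟨_, rfl⟩
  obtain ⟨s, hs⟩ : ∃ s, s = 2 * a := ⟨_, rfl⟩
  have hθ : 2 * (a * a) ≤ s * s := by rw [hs]; nlinarith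
  refine ⟨matE A T W0 e' X s, ?_, ?_⟩
  · rintro r' r c1 c2 hr hc ⟨h1, h2, h3, h4⟩
    exact matE_free hex X s (a * a) hθ hfresh r' r c1 c2 hr hc h1 h2 h3 h4
  obtain ⟨v, hv⟩ : ∃ v, v = K ^ 6 * u := ⟨_, rfl⟩
  have hvpos : 1 ≤ v := by rw [hv]; exact Nat.one_le_iff_ne_zero.mpr (by positivity)
  have hav : a = 2 * v := by rw [ha, hv]; ring
  have hK2 : K ^ 2 * u ≤ v := by
    rw [hv]
    exact Nat.mul_le_mul_right _ (Nat.pow_le_pow_right hK (by norm_num))
  have hK4 : K ^ 4 * u ≤ v := by
    rw [hv]
    exact Nat.mul_le_mul_right _ (Nat.pow_le_pow_right hK (by norm_num))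
  have hTu : T.card * (2 * u) ≤ 2 * v := by
    calc T.card * (2 * u) ≤ K ^ 2 * (2 * u) := Nat.mul_le_mul_right _ hT
      _ = 2 * (K ^ 2 * u) := by ring
      _ ≤ 2 * v := by omega
  have hRem : (remRows A T W0 e').card ≤ 5 * v := by
    have h1 := remRows_card A T W0 e'
    have h2 : T.card * T.card * e' ≤ K ^ 2 * K ^ 2 * (K ^ 2 * (2 * u) + 1) := by
      rw [he']; gcongr
    have h3 : K ^ 2 * K ^ 2 * (K ^ 2 * (2 * u) + 1) ≤ 3 * v := by
      have h4 : 1 ≤ K ^ 2 * u := Nat.one_le_iff_ne_zero.mpr (by positivity)
      calc K ^ 2 * K ^ 2 * (K ^ 2 * (2 * u) + 1) ≤ K ^ 2 * K ^ 2 * (K ^ 2 * (2 * u) + K ^ 2 * u) := by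
            gcongr
        _ = 3 * v := by rw [hv]; ring
    have h5 : 2 * K ^ 4 * u = 2 * (K ^ 4 * u) := by ring
    omega
  have hX' : X.card ≤ 3 * v := by
    have : 3 * K ^ 6 * u = 3 * v := by rw [hv]; ring
    omega
  have hcost : ∀ c, c ∉ X → (univ.filter fun r => A r c ≠ matE A T W0 e' X s r c).card ≤ 18 * v := by
    intro c hc
    have := column_cost A T X W0 e' s a u hu hs he' (by omega) hex hcop hfresh c hc
    omega
  have hdiff := diffCount_le A (matE A T W0 e' X s) _ (fun c => le_refl _)
  have hsum := column_sum_le X (18 * v)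
    (fun c => (univ.filter fun r => A r c ≠ matE A T W0 e' X s r c).card)
    (fun c _ => (card_filter_le _ _).trans (by simp)) hcost
  have hf2 : diffCount A (matE A T W0 e' X s) ≤ 21 * v * n := by
    refine hdiff.trans (hsum.trans ?_)
    have h1 : X.card * n ≤ (3 * v) * n := Nat.mul_le_mul_right _ hX'
    nlinarith
  have hk7 : v * K ≤ n := by
    calc v * K = K ^ 7 * u := by rw [hv]; ring
      _ ≤ n := hn1
  calc diffCount A (matE A T W0 e' X s) * K ≤ (21 * v * n) * K :=
        Nat.mul_le_mul_right _ hf2
    _ = 21 * n * (v * K) := by ring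
    _ ≤ 21 * n * n := Nat.mul_le_mul_left _ hk7
    _ ≤ 30 * n * n := by nlinarith

end Vale.Agent.helper7.Rem
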