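import Vale.Agent.helper7.Rem.PatD
import Vale.Agent.helper7.Rem.PatE

namespace Vale.Agent.helper7.Rem

open Finset

variable {n : ℕ}

/-- What is proved for a pattern. -/
def Removable (P : Pat) : Prop :=
  ∀ (n K u : ℕ) (A : Fin n → Fin n → Bool), 1 ≤ K → 1 ≤ u → K ^ 7 * u ≤ n → n < 2 * K ^ 7 * u →
    total A P ≤ K ^ 10 * u ^ 4 → ∃ B : Fin n → Fin n → Bool, total B P = 0 ∧
      diffCount A B * K ≤ 30 * n * n

lemma total_eq_zero (B : Fin n → Fin n → Bool) (P : Pat)
    (h : ∀ r' r c1 c2 : Fin n, r' < r → c1 < c2 → ¬ (First B P r' r c1 ∧ Second B P r' r c2)) :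
    total B P = 0 := by
  unfold total totalSet
  rw [card_eq_zero, filter_eq_empty_iff]
  intro q _ hq
  exact h _ _ _ _ hq.1 hq.2.1 hq.2.2

lemma rem_D : Removable patD := by
  intro n K u A hK hu h1 h2 hN
  obtain ⟨B, hB, hd⟩ := removal_D A K u hK hu h1 h2 hN
  refine ⟨B, total_eq_zero B patD ?_, by nlinarith⟩
  rintro r' r c1 c2 hr hc ⟨⟨h1, h2⟩, ⟨h3, h4⟩⟩
  exact hB r' r c1 c2 hr hc ⟨h1, h3, h2, h4⟩

lemma rem_E : Removable patE := by
  intro n K u A hK hu h1 h2 hN
  obtain ⟨B, hB, hd⟩ := removal_E A K u hK hu h1 h2 hN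
  refine ⟨B, total_eq_zero B patE ?_, hd⟩
  rintro r' r c1 c2 hr hc ⟨⟨h1, h2⟩, ⟨h3, h4⟩⟩
  exact hB r' r c1 c2 hr hc ⟨h1, h3, h2, h4⟩

/-- In a pattern whose two columns agree, a column outside `X` and `T` shows its letter rarely. -/
lemma adv_few (A : Fin n → Fin n → Bool) (P : Pat) (h1 : P.a1 = P.a2) (h2 : P.b1 = P.b2)
    (T : Finset (Fin n)) (c : Fin n) (m θ : ℕ)
    (hcop : ∀ t ∈ T, t < c → cop A P t c ≤ m) (hfresh : (freshSet A P T c).card < θ) :
    (adv A P c).card ≤ θ + T.card * m := by
  classical
  let CU : Finset (Fin n × Fin n) := T.biUnion fun t => if t < c then copSet A P t c else ∅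
  have hCU : CU.card ≤ T.card * m := by
    refine card_biUnion_le.trans ?_
    calc ∑ t ∈ T, (if t < c then copSet A P t c else ∅).card ≤ ∑ _t ∈ T, m := by
          apply sum_le_sum
          intro t ht
          by_cases htc : t < c
          · rw [if_pos htc]; exact hcop t ht htc
          · rw [if_neg htc]; simp
      _ = T.card * m := by simp
  have hsub : adv A P c ⊆ freshSet A P T c ∪ CU := by
    intro q hq
    have hq' := (mem_filter.mp hq).2
    by_cases hb : ∃ t ∈ T, t < c ∧ First A P q.1 q.2 t
    · obtain ⟨t, ht, htc, hF⟩ := hb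
      apply mem_union_right
      apply mem_biUnion.mpr
      refine ⟨t, ht, ?_⟩
      rw [if_pos htc]
      apply mem_filter.mpr
      refine ⟨mem_univ _, hq'.1, hF, ?_⟩
      exact ⟨h1 ▸ hq'.2.1, h2 ▸ hq'.2.2⟩
    · apply mem_union_left
      apply mem_filter.mpr
      refine ⟨mem_univ _, hq'.1, hq'.2, ?_⟩
      intro t ht htc hF
      exact hb ⟨t, ht, htc, hF⟩
  have := (card_le_card hsub).trans (card_union_le _ _)
  omega

/-- The pattern with rows `0 0`, `0 0`. -/
def patC : Pat := ⟨false, false, false, false⟩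

/-- The pattern with rows `0 0`, `1 1`. -/
def patF : Pat := ⟨false, false, true, true⟩

/-- The numbers used for both simple patterns. -/
lemma simple_numbers (K u n : ℕ) (hK : 1 ≤ K) (hu : 1 ≤ u) (hn1 : K ^ 7 * u ≤ n)
    (Tc Xc d : ℕ) (hT : Tc ≤ K ^ 2) (hX : Xc ≤ 3 * K ^ 6 * u) (D : ℕ)
    (hd : d ≤ 8 * (K ^ 6 * u))
    (hD : D ≤ (Xc + Tc) * n + n * d) : D * K ≤ 30 * n * n := by
  have hKpos : 0 < K := hK
  obtain ⟨v, hv⟩ : ∃ v, v = K ^ 6 * u := ⟨_, rfl⟩
  have hK2 : K ^ 2 ≤ v := by
    rw [hv]
    calc K ^ 2 ≤ K ^ 6 := Nat.pow_le_pow_right hK (by norm_num)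
      _ ≤ K ^ 6 * u := Nat.le_mul_of_pos_right _ hu
  have hX' : Xc ≤ 3 * v := by rw [hv]; nlinarith
  have hk7 : v * K ≤ n := by
    calc v * K = K ^ 7 * u := by rw [hv]; ring
      _ ≤ n := hn1
  rw [← hv] at hd
  have h1 : D ≤ 12 * v * n := by
    have h2 : (Xc + Tc) * n ≤ (4 * v) * n := Nat.mul_le_mul_right _ (by omega)
    have h3 : n * d ≤ n * (8 * v) := Nat.mul_le_mul_left _ hd
    nlinarith
  calc D * K ≤ (12 * v * n) * K := Nat.mul_le_mul_right _ h1
    _ = 12 * n * (v * K) := by ring
    _ ≤ 12 * n * n := Nat.mul_le_mul_left _ hk7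
    _ ≤ 30 * n * n := by nlinarith

lemma rem_C : Removable patC := by
  intro n K u A hK hu hn1 hn hN
  classical
  obtain ⟨T, X, W, hT, hX, _, _, hcop, hfresh⟩ := structure_params A patC K u hK hu hn hN
  have hKpos : 0 < K := hK
  have hupos : 0 < u := hu
  obtain ⟨a, ha⟩ : ∃ a, a = 2 * K ^ 6 * u := ⟨_, rfl⟩
  rw [← ha] at hfresh
  have hapos : 1 ≤ a := by rw [ha]; exact Nat.one_le_iff_ne_zero.mpr (by positivity)
  have hau : K ^ 2 * (u * u) ≤ a * a := by
    have h1 : K ^ 2 * u ≤ a := by
      rw [ha]
      have : K ^ 2 ≤ K ^ 6 := Nat.pow_le_pow_right hK (by norm_num)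
      have := Nat.mul_le_mul_right u this
      nlinarith
    have h2 : u ≤ a := by
      have : 1 ≤ K ^ 2 := Nat.one_le_iff_ne_zero.mpr (by positivity)
      nlinarith
    calc K ^ 2 * (u * u) = (K ^ 2 * u) * u := by ring
      _ ≤ a * a := Nat.mul_le_mul h1 h2
  refine ⟨fun _ _ => true, ?_, ?_⟩
  · apply total_eq_zero
    rintro r' r c1 c2 _ _ ⟨⟨h1, _⟩, _⟩
    exact absurd h1 (by simp [patC])
  · have hcol : ∀ c, c ∉ X ∪ T → (univ.filter fun r => A r c ≠ (fun _ _ => true) r c).card ≤ 4 * a := by
      intro c hc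
      have hc1 : c ∉ X := fun h => hc (mem_union_left _ h)
      have hc2 : c ∉ T := fun h => hc (mem_union_right _ h)
      have h1 := adv_few A patC rfl rfl T c (u * u) (a * a) (fun t ht htc => hcop t ht c hc1 htc)
        (hfresh c hc1 hc2)
      let Y : Finset (Fin n) := univ.filter fun r => A r c = false
      have hsub : ((Y ×ˢ Y).filter fun q => q.1 < q.2) ⊆ adv A patC c := by
        intro q hq
        have hq1 := mem_filter.mp hq
        have hq2 := mem_product.mp hq1.1
        exact mem_filter.mpr ⟨mem_univ _, hq1.2, (mem_filter.mp hq2.1).2, (mem_filter.mp hq2.2).2⟩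
      have h2 : ((Y ×ˢ Y).filter fun q => q.1 < q.2).card ≤ (2 * a) * (2 * a) := by
        refine (card_le_card hsub).trans (h1.trans ?_)
        have : T.card * (u * u) ≤ K ^ 2 * (u * u) := Nat.mul_le_mul_right _ hT
        nlinarith
      obtain ⟨x, hx1, hx2⟩ := threshold Y Y (2 * a) (by omega) h2
      have hY : Y.card ≤ 4 * a := by
        have hs : Y ⊆ (Y.filter fun p => p.val < x) ∪ (Y.filter fun q => x ≤ q.val) := by
          intro y hy
          by_cases hyx : y.val < x
          · exact mem_union_left _ (mem_filter.mpr ⟨hy, hyx⟩)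
          · exact mem_union_right _ (mem_filter.mpr ⟨hy, not_lt.mp hyx⟩)
        have := (card_le_card hs).trans (card_union_le _ _)
        omega
      refine le_trans (card_le_card ?_) hY
      intro r hr
      have := (mem_filter.mp hr).2
      apply mem_filter.mpr
      refine ⟨mem_univ _, ?_⟩
      cases hv : A r c with
      | false => rfl
      | true => simp [hv] at this
    have hdiff := diffCount_le A (fun _ _ => true) _ (fun c => le_refl _)
    have hsum := column_sum_le (X ∪ T) (4 * a)
      (fun c => (univ.filter fun r => A r c ≠ (fun _ _ => true) r c).card)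
      (fun c _ => (card_filter_le _ _).trans (by simp)) hcol
    have hXT : (X ∪ T).card ≤ X.card + T.card := card_union_le _ _
    refine simple_numbers K u n hK hu hn1 T.card X.card (4 * a) hT hX _ (by rw [ha]; nlinarith) ?_
    refine hdiff.trans (hsum.trans ?_)
    have := Nat.mul_le_mul_right n hXT
    omega

lemma rem_F : Removable patF := by
  intro n K u A hK hu hn1 hn hN
  classical
  obtain ⟨T, X, W, hT, hX, _, _, hcop, hfresh⟩ := structure_params A patF K u hK hu hn hN
  have hKpos : 0 < K := hK
  have hupos : 0 < u := hu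
  obtain ⟨a, ha⟩ : ∃ a, a = 2 * K ^ 6 * u := ⟨_, rfl⟩
  rw [← ha] at hfresh
  have hapos : 1 ≤ a := by rw [ha]; exact Nat.one_le_iff_ne_zero.mpr (by positivity)
  have hau : K ^ 2 * (u * u) ≤ a * a := by
    have h1 : K ^ 2 * u ≤ a := by
      rw [ha]
      have : K ^ 2 ≤ K ^ 6 := Nat.pow_le_pow_right hK (by norm_num)
      have := Nat.mul_le_mul_right u this
      nlinarith
    have h2 : u ≤ a := by
      have : 1 ≤ K ^ 2 := Nat.one_le_iff_ne_zero.mpr (by positivity)
      nlinarith
    calc K ^ 2 * (u * u) = (K ^ 2 * u) * u := by ring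
      _ ≤ a * a := Nat.mul_le_mul h1 h2
  -- a threshold for each column
  have hcol : ∀ c, ∃ x : ℕ, c ∉ X ∪ T →
      (univ.filter fun r => A r c = false ∧ r.val < x).card ≤ 2 * a ∧
      (univ.filter fun r => A r c = true ∧ x ≤ r.val).card ≤ 2 * a := by
    intro c
    by_cases hc : c ∈ X ∪ T
    · exact ⟨0, fun h => absurd hc h⟩
    · have hc1 : c ∉ X := fun h => hc (mem_union_left _ h)
      have hc2 : c ∉ T := fun h => hc (mem_union_right _ h)
      have h1 := adv_few A patF rfl rfl T c (u * u) (a * a) (fun t ht htc => hcop t ht c hc1 htc)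
        (hfresh c hc1 hc2)
      let Y : Finset (Fin n) := univ.filter fun r => A r c = false
      let Y' : Finset (Fin n) := univ.filter fun r => A r c = true
      have hsub : ((Y ×ˢ Y').filter fun q => q.1 < q.2) ⊆ adv A patF c := by
        intro q hq
        have hq1 := mem_filter.mp hq
        have hq2 := mem_product.mp hq1.1
        exact mem_filter.mpr ⟨mem_univ _, hq1.2, (mem_filter.mp hq2.1).2, (mem_filter.mp hq2.2).2⟩
      have h2 : ((Y ×ˢ Y').filter fun q => q.1 < q.2).card ≤ (2 * a) * (2 * a) := by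
        refine (card_le_card hsub).trans (h1.trans ?_)
        have : T.card * (u * u) ≤ K ^ 2 * (u * u) := Nat.mul_le_mul_right _ hT
        nlinarith
      obtain ⟨x, hx1, hx2⟩ := threshold Y Y' (2 * a) (by omega) h2
      refine ⟨x, fun _ => ⟨le_trans (card_le_card ?_) hx1, le_trans (card_le_card ?_) hx2⟩⟩
      · intro r hr
        have := (mem_filter.mp hr).2
        exact mem_filter.mpr ⟨mem_filter.mpr ⟨mem_univ _, this.1⟩, this.2⟩
      · intro r hr
        have := (mem_filter.mp hr).2
        exact mem_filter.mpr ⟨mem_filter.mpr ⟨mem_univ _, this.1⟩, this.2⟩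
  choose x hx using hcol
  let B : Fin n → Fin n → Bool := fun r c => if c ∈ X ∪ T then true else decide (r.val < x c)
  refine ⟨B, ?_, ?_⟩
  · apply total_eq_zero
    rintro r' r c1 c2 hr _ ⟨⟨h1, h2⟩, _⟩
    simp only [patF, B] at h1 h2
    by_cases hc : c1 ∈ X ∪ T
    · rw [if_pos hc] at h1
      exact absurd h1 (by simp)
    · rw [if_neg hc] at h1 h2
      have h3 : ¬ r'.val < x c1 := by simpa using h1
      have h4 : r.val < x c1 := by simpa using h2
      have h5 : r'.val < r.val := hr
      omega
  · have hc : ∀ c, c ∉ X ∪ T → (univ.filter fun r => A r c ≠ B r c).card ≤ 4 * a := by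
      intro c hc
      obtain ⟨h1, h2⟩ := hx c hc
      have hs : (univ.filter fun r => A r c ≠ B r c) ⊆
          (univ.filter fun r => A r c = false ∧ r.val < x c) ∪
          (univ.filter fun r => A r c = true ∧ x c ≤ r.val) := by
        intro r hr
        have hne := (mem_filter.mp hr).2
        simp only [B] at hne
        rw [if_neg hc] at hne
        by_cases hrx : r.val < x c
        · apply mem_union_left
          apply mem_filter.mpr
          refine ⟨mem_univ _, ?_, hrx⟩
          cases hv : A r c with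
          | false => rfl
          | true => simp [hv, hrx] at hne
        · apply mem_union_right
          apply mem_filter.mpr
          refine ⟨mem_univ _, ?_, not_lt.mp hrx⟩
          cases hv : A r c with
          | true => rfl
          | false => simp [hv, hrx] at hne
      have := (card_le_card hs).trans (card_union_le _ _)
      omega
    have hdiff := diffCount_le A B _ (fun c => le_refl _)
    have hsum := column_sum_le (X ∪ T) (4 * a)
      (fun c => (univ.filter fun r => A r c ≠ B r c).card)
      (fun c _ => (card_filter_le _ _).trans (by simp)) hc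
    have hXT : (X ∪ T).card ≤ X.card + T.card := card_union_le _ _
    refine simple_numbers K u n hK hu hn1 T.card X.card (4 * a) hT hX _ (by rw [ha]; nlinarith) ?_
    refine hdiff.trans (hsum.trans ?_)
    have := Nat.mul_le_mul_right n hXT
    omega

/-! ### Symmetries -/

section sym

variable (A B : Fin n → Fin n → Bool) (P : Pat)

/-- Complement of a pattern. -/
def Pat.cpl (P : Pat) : Pat := ⟨!P.a1, !P.a2, !P.b1, !P.b2⟩
/-- Swapping the two rows of a pattern. -/
def Pat.swR (P : Pat) : Pat := ⟨P.b1, P.b2, P.a1, P.a2⟩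
/-- Swapping the two columns of a pattern. -/
def Pat.swC (P : Pat) : Pat := ⟨P.a2, P.a1, P.b2, P.b1⟩
/-- Transpose of a pattern. -/
def Pat.tr (P : Pat) : Pat := ⟨P.a1, P.b1, P.a2, P.b2⟩

lemma total_cpl : total (fun r c => !A r c) P.cpl = total A P := by
  unfold total totalSet
  congr 1
  ext q
  simp only [mem_filter, mem_univ, true_and, First, Second, Pat.cpl]
  simp

lemma diff_cpl : diffCount (fun r c => !A r c) (fun r c => !B r c) = diffCount A B := by
  unfold diffCount
  congr 1
  ext q
  simp

lemma card_filter_inv {α : Type*} [Fintype α] (f : α → α) (hf : ∀ x, f (f x) = x)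
    (p q : α → Prop) [DecidablePred p] [DecidablePred q] (h : ∀ x, p (f x) ↔ q x) :
    (univ.filter p).card = (univ.filter q).card := by
  apply card_nbij' f f
  · intro x hx
    have hx' := (mem_filter.mp hx).2
    apply mem_filter.mpr
    refine ⟨mem_univ _, ?_⟩
    apply (h _).mp
    rw [hf]
    exact hx'
  · intro x hx
    have hx' := (mem_filter.mp hx).2
    exact mem_filter.mpr ⟨mem_univ _, (h x).mpr hx'⟩
  · intro x _
    exact hf x
  · intro x _
    exact hf x

lemma total_swR : total (fun r c => A (Fin.rev r) c) P.swR = total A P := by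
  unfold total totalSet
  apply card_filter_inv
    (fun q : (Fin n × Fin n) × (Fin n × Fin n) => ((Fin.rev q.1.2, Fin.rev q.1.1), q.2))
  · intro q
    simp
  · intro q
    simp only [First, Second, Pat.swR, Fin.rev_rev, Fin.rev_lt_rev]
    tauto

lemma diff_swR : diffCount (fun r c => A (Fin.rev r) c) (fun r c => B (Fin.rev r) c) = diffCount A B := by
  unfold diffCount
  apply card_filter_inv (fun q : Fin n × Fin n => (Fin.rev q.1, q.2))
  · intro q
    simp
  · intro q
    simp only [Fin.rev_rev]

lemma total_swC : total (fun r c => A r (Fin.rev c)) P.swC = total A P := by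
  unfold total totalSet
  apply card_filter_inv
    (fun q : (Fin n × Fin n) × (Fin n × Fin n) => (q.1, (Fin.rev q.2.2, Fin.rev q.2.1)))
  · intro q
    simp
  · intro q
    simp only [First, Second, Pat.swC, Fin.rev_rev, Fin.rev_lt_rev]
    tauto

lemma diff_swC : diffCount (fun r c => A r (Fin.rev c)) (fun r c => B r (Fin.rev c)) = diffCount A B := by
  unfold diffCount
  apply card_filter_inv (fun q : Fin n × Fin n => (q.1, Fin.rev q.2))
  · intro q
    simp
  · intro q
    simp only [Fin.rev_rev]

lemma total_tr : total (fun r c => A c r) P.tr = total A P := by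
  unfold total totalSet
  apply card_filter_inv
    (fun q : (Fin n × Fin n) × (Fin n × Fin n) => (q.2, q.1))
  · intro q
    simp
  · intro q
    simp only [First, Second, Pat.tr]
    tauto

lemma diff_tr : diffCount (fun r c => A c r) (fun r c => B c r) = diffCount A B := by
  unfold diffCount
  apply card_filter_inv (fun q : Fin n × Fin n => (q.2, q.1))
  · intro q
    simp
  · intro q
    simp only

end sym

lemma Removable.cpl {P : Pat} (h : Removable P) : Removable P.cpl := by
  intro n K u A hK hu h1 h2 hN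
  have e : total (fun r c => !A r c) P = total A P.cpl := by
    have := total_cpl (fun r c => !A r c) P
    simpa using this.symm
  obtain ⟨B, hB, hd⟩ := h n K u (fun r c => !A r c) hK hu h1 h2 (by rw [e]; exact hN)
  refine ⟨fun r c => !B r c, ?_, ?_⟩
  · rw [total_cpl]; exact hB
  · have := diff_cpl (fun r c => !A r c) B
    simp only [Bool.not_not] at this
    rw [this]
    exact hd

lemma Removable.swR {P : Pat} (h : Removable P) : Removable P.swR := by
  intro n K u A hK hu h1 h2 hN
  have e : total (fun r c => A (Fin.rev r) c) P = total A P.swR := by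
    have := total_swR (fun r c => A (Fin.rev r) c) P
    simpa using this.symm
  obtain ⟨B, hB, hd⟩ := h n K u (fun r c => A (Fin.rev r) c) hK hu h1 h2 (by rw [e]; exact hN)
  refine ⟨fun r c => B (Fin.rev r) c, ?_, ?_⟩
  · rw [total_swR]; exact hB
  · have := diff_swR (fun r c => A (Fin.rev r) c) B
    simp only [Fin.rev_rev] at this
    rw [this]
    exact hd

lemma Removable.swC {P : Pat} (h : Removable P) : Removable P.swC := by
  intro n K u A hK hu h1 h2 hN
  have e : total (fun r c => A r (Fin.rev c)) P = total A P.swC := by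
    have := total_swC (fun r c => A r (Fin.rev c)) P
    simpa using this.symm
  obtain ⟨B, hB, hd⟩ := h n K u (fun r c => A r (Fin.rev c)) hK hu h1 h2 (by rw [e]; exact hN)
  refine ⟨fun r c => B r (Fin.rev c), ?_, ?_⟩
  · rw [total_swC]; exact hB
  · have := diff_swC (fun r c => A r (Fin.rev c)) B
    simp only [Fin.rev_rev] at this
    rw [this]
    exact hd

lemma Removable.tr {P : Pat} (h : Removable P) : Removable P.tr := by
  intro n K u A hK hu h1 h2 hN
  have e : total (fun r c => A c r) P = total A P.tr := by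
    have := total_tr (fun r c => A c r) P
    simpa using this.symm
  obtain ⟨B, hB, hd⟩ := h n K u (fun r c => A c r) hK hu h1 h2 (by rw [e]; exact hN)
  refine ⟨fun r c => B c r, ?_, ?_⟩
  · rw [total_tr]; exact hB
  · have := diff_tr (fun r c => A c r) B
    rw [this]
    exact hd

/-- Every two by two pattern is covered. -/
theorem rem_all (P : Pat) : Removable P := by
  rcases P with ⟨a1, a2, b1, b2⟩
  have hE := rem_E
  have hD := rem_D
  have hC := rem_C
  have hF := rem_F
  cases a1 <;> cases a2 <;> cases b1 <;> cases b2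
  · exact hC
  · exact hE
  · exact hE.swC
  · exact hF
  · exact hE.swR
  · exact hF.tr
  · exact hD.swR
  · exact hE.swR.swC.cpl
  · exact hE.swR.swC
  · exact hD
  · exact hF.tr.cpl
  · exact hE.swR.cpl
  · exact hF.cpl
  · exact hE.swC.cpl
  · exact hE.cpl
  · exact hC.cpl

end Vale.Agent.helper7.Rem
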